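import Crest.Agent.OM.Defs

/-! # S0066: dyadic arithmetic (task ARITH, done by helper20) -/
set_option autoImplicit false

namespace Crest.Agent.OM

theorem div_pow_eq_of_le {a b u v : ℕ} (huv : u ≤ v) (hab : a / 2 ^ u = b / 2 ^ u) :
    a / 2 ^ v = b / 2 ^ v := by
  obtain ⟨d, rfl⟩ := Nat.exists_eq_add_of_le huv
  rw [pow_add, ← Nat.div_div_eq_div_mul, ← Nat.div_div_eq_div_mul, hab]

theorem rep_div (j k : ℕ) (w : Bool) (q : ℕ) (hjk : j ≤ k) : rep j w q / 2 ^ k = q / 2 ^ k := by
  apply div_pow_eq_of_le hjk
  have hp : 0 < 2 ^ j := by positivity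
  unfold rep
  cases w
  · simp only [Bool.false_eq_true, if_false]
    exact Nat.mul_div_cancel _ hp
  · simp only [if_true]
    rw [mul_comm, Nat.mul_add_div hp]
    have : (2 ^ j - 1) / 2 ^ j = 0 := Nat.div_eq_of_lt (by omega)
    rw [this, add_zero]

theorem div_eq_of_par {j a b : ℕ} (h1 : a / 2 ^ (j + 1) = b / 2 ^ (j + 1))
    (h2 : par j a = par j b) : a / 2 ^ j = b / 2 ^ j := by
  rw [pow_succ, ← Nat.div_div_eq_div_mul, ← Nat.div_div_eq_div_mul] at h1
  unfold par at h2
  have h3 : ((a / 2 ^ j) % 2 = 1) ↔ ((b / 2 ^ j) % 2 = 1) := by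
    simpa using h2
  omega

theorem J2_arith {a a' e e' p p' s s' : ℕ} (haa : a ≤ a') (hee : e ≤ e')
    (h1 : a / 2 ^ (max p s) ≠ e / 2 ^ (max p s))
    (h2 : a / 2 ^ (max p s') = e' / 2 ^ (max p s'))
    (h3 : a' / 2 ^ (max p' s) = e / 2 ^ (max p' s))
    (h4 : a' / 2 ^ (max p' s') ≠ e' / 2 ^ (max p' s')) : False := by
  rcases le_total (max p s') (max p' s) with huv | huv
  · -- u ≤ v
    set v := max p' s with hv
    have h2' : a / 2 ^ v = e' / 2 ^ v := div_pow_eq_of_le huv h2
    by_cases hc : a / 2 ^ v = a' / 2 ^ v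
    · have hae : a / 2 ^ v = e / 2 ^ v := hc.trans h3
      have hlt : max p s < v := by
        by_contra hge
        exact h1 (div_pow_eq_of_le (not_lt.mp hge) hae)
      have hvp : v ≤ max p' s' := by
        have : v = p' := by
          rcases le_total p' s with hps | hps
          · exfalso
            have : v = s := by rw [hv]; exact max_eq_right hps
            have h5 : s ≤ max p s := le_max_right _ _
            omega
          · rw [hv]; exact max_eq_left hps
        rw [this]; exact le_max_left _ _
      exact h4 (div_pow_eq_of_le hvp (hc.symm.trans h2'))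
    · have hle : a / 2 ^ v ≤ a' / 2 ^ v := Nat.div_le_div_right haa
      have hle2 : e / 2 ^ v ≤ e' / 2 ^ v := Nat.div_le_div_right hee
      omega
  · set u := max p s' with hu
    have h3' : a' / 2 ^ u = e / 2 ^ u := div_pow_eq_of_le huv h3
    by_cases hc : a / 2 ^ u = a' / 2 ^ u
    · have hae : a' / 2 ^ u = e' / 2 ^ u := hc.symm.trans h2
      have hlt : max p' s' < u := by
        by_contra hge
        exact h4 (div_pow_eq_of_le (not_lt.mp hge) hae)
      have hup : u ≤ max p s := by
        have : u = p := by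
          rcases le_total p s' with hps | hps
          · exfalso
            have : u = s' := by rw [hu]; exact max_eq_right hps
            have h5 : s' ≤ max p' s' := le_max_right _ _
            omega
          · rw [hu]; exact max_eq_left hps
        rw [this]; exact le_max_left _ _
      exact h1 (div_pow_eq_of_le hup (hc.trans h3'))
    · have hle : a / 2 ^ u ≤ a' / 2 ^ u := Nat.div_le_div_right haa
      have hle2 : e / 2 ^ u ≤ e' / 2 ^ u := Nat.div_le_div_right hee
      omega

end Crest.Agent.OM
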