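import Crest.Agent.OM.Order

/-! # S0066: cardinality of the label type (task CARD, done by helper20) -/
set_option autoImplicit false

namespace Crest.Agent.OM
variable {h : ℕ}

def grpEquiv : Grp h ≃ (Fin h ⊕ (Fin h × Bool)) ⊕ Unit where
  toFun
    | .V j => .inl (.inl j)
    | .Hz j a => .inl (.inr (j, a))
    | .N => .inr ()
  invFun
    | .inl (.inl j) => .V j
    | .inl (.inr (j, a)) => .Hz j a
    | .inr () => .N
  left_inv := by intro g; cases g <;> rfl
  right_inv := by rintro ((j | ⟨j, a⟩) | ⟨⟩) <;> rfl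

theorem card_grp : Fintype.card (Grp h) = 3 * h + 1 := by
  rw [Fintype.card_congr grpEquiv]
  simp
  omega

def untEquiv : Unt h ≃ (Fin (186 * h - 66) ⊕ (Grp h × Fin 63)) ⊕ ((Grp h × Fin 3) ⊕ (Fin (h + 1) × Bool)) where
  toFun
    | .junk i => .inl (.inl i)
    | .ctx g i => .inl (.inr (g, i))
    | .cl g k => .inr (.inl (g, k))
    | .tr j w => .inr (.inr (j, w))
  invFun
    | .inl (.inl i) => .junk i
    | .inl (.inr (g, i)) => .ctx g i
    | .inr (.inl (g, k)) => .cl g k
    | .inr (.inr (j, w)) => .tr j w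
  left_inv := by intro g; cases g <;> rfl
  right_inv := by rintro ((i | ⟨g, i⟩) | (⟨g, k⟩ | ⟨j, w⟩)) <;> rfl

theorem card_unt (hh : 1 ≤ h) : Fintype.card (Unt h) = 386 * h + 2 := by
  rw [Fintype.card_congr untEquiv]
  simp [card_grp]
  omega

def labEquiv : Lab h ≃ Unt h × Fin (2 ^ h) where
  toFun r := (r.u, r.q)
  invFun p := ⟨p.1, p.2⟩
  left_inv := by intro r; rfl
  right_inv := by intro p; rfl

theorem card_lab (hh : 1 ≤ h) : Fintype.card (Lab h) = (386 * h + 2) * 2 ^ h := by
  rw [Fintype.card_congr labEquiv]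
  simp [card_unt hh]

end Crest.Agent.OM
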