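import Crest.Agent.OM.Copy

/-! # S0066 (ordered-matrix removal counterexample): task CHB (done by helper20) -/
set_option autoImplicit false

namespace Crest.Agent.OM
variable {h : ℕ}

/-- CHB: the top cell is robust and all ones (`q / 2^h = 0` for `q < 2^h`). -/
theorem base_top (B : Lab h → Lab h → Bool) (x s t : Fin (2 ^ h)) (hg : Good B x s t) (w w' : Bool) :
    B (sel x s (.tr (Fin.last h) w)) (sel x t (.tr (Fin.last h) w')) = true := by
  rw [hg _ _ (by simp [low])]
  simp only [sel, Amat, low, Fin.val_last, ne_eq, not_true_eq_false, if_false, max_self]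
  rw [Nat.div_eq_of_lt s.isLt, Nat.div_eq_of_lt t.isLt]
  simp

end Crest.Agent.OM
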