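import Crest.Agent.OM.Copy

/-! # S0066 (ordered-matrix removal counterexample): task CHH -/
set_option autoImplicit false

namespace Crest.Agent.OM
variable {h : ℕ}

theorem chh_div_eq (x s : Fin (2 ^ h)) (j : Fin h) (w : Bool) :
    (sel x s (.tr j.succ w)).q.val / 2 ^ (j.val + 1) = x.val / 2 ^ (j.val + 1) := by
  by_cases hj : j.val + 1 = h
  · have h1 : (sel x s (.tr j.succ w)).q.val / 2 ^ (j.val + 1) = 0 := by
      rw [hj]; exact Nat.div_eq_of_lt (Fin.isLt _)
    have h2 : x.val / 2 ^ (j.val + 1) = 0 := by
      rw [hj]; exact Nat.div_eq_of_lt (Fin.isLt _)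
    rw [h1, h2]
  · have : low (Unt.tr (h := h) j.succ w) := by
      simp only [low, Fin.val_succ]; exact hj
    simp only [sel, if_pos this]

theorem chh_sel_cast (x s : Fin (2 ^ h)) (j : Fin h) (w : Bool) :
    sel x s (.tr j.castSucc w) = ⟨.tr j.castSucc w, x⟩ := by
  have : low (Unt.tr (h := h) j.castSucc w) := by
    simp only [low, Fin.val_castSucc]; exact Nat.ne_of_lt j.isLt
  simp only [sel, if_pos this]

/-- CHH: horizontal sandwich, group `Hz j (par j x)`.  `uR = ![cl g 0, tr j.castSucc w, cl g 2]`,
`uC = ![tr j.succ false, tr j.castSucc w', tr j.succ true]`.  (`tr j.castSucc _` is low, so it sits at position `x`.)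
Core entries in the `cl` rows are robust and `Amat (cl ..) _ = true` on special columns. -/
theorem step_H (B : Lab h → Lab h → Bool) (hB : ∀ rows cols, ¬ IsCopy B rows cols)
    (x s t : Fin (2 ^ h)) (hg : Good B x s t) (j : Fin h)
    (hL : ∀ w w', B (sel x s (.tr j.castSucc w)) (sel x t (.tr j.succ w')) = true) (w w' : Bool) :
    B (sel x s (.tr j.castSucc w)) (sel x t (.tr j.castSucc w')) = true := by
  by_contra hne
  have hf : B (sel x s (.tr j.castSucc w)) (sel x t (.tr j.castSucc w')) = false := by
    simpa using hne
  obtain ⟨rows, cols, hc⟩ := copy_of_att B x s t hg (.Hz j (par j.val x.val))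
    ![.cl (.Hz j (par j.val x.val)) 0, .tr j.castSucc w, .cl (.Hz j (par j.val x.val)) 2]
    ![.tr j.succ false, .tr j.castSucc w', .tr j.succ true]
    (by
      have h01 : sel x s (.cl (.Hz j (par j.val x.val)) 0) < sel x s (.tr j.castSucc w) :=
        lt_of_k1_lt (by simp [k1, sel])
      have h12 : sel x s (.tr j.castSucc w) < sel x s (.cl (.Hz j (par j.val x.val)) 2) :=
        lt_of_k1_lt (by simp [k1, sel])
      intro a b hab
      fin_cases a <;> fin_cases b <;> simp_all <;>
        first | exact h01 | exact h12 | exact h01.trans h12)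
    (by
      have h01 : sel x t (.tr j.succ false) < sel x t (.tr j.castSucc w') := by
        rw [chh_sel_cast]
        exact alpha_lt j w' _ x (chh_div_eq x t j false)
      have h12 : sel x t (.tr j.castSucc w') < sel x t (.tr j.succ true) := by
        rw [chh_sel_cast]
        exact lt_omega j w' _ x (chh_div_eq x t j true)
      intro a b hab
      fin_cases a <;> fin_cases b <;> simp_all <;>
        first | exact h01 | exact h12 | exact h01.trans h12)
    (by intro k; fin_cases k <;> simp [isS, k1, sel])
    (by intro k; fin_cases k <;> simp [isS, k1, sel])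
    (by
      intro k
      fin_cases k
      · simp [attR]
      · simp only [Fin.mk_one, Matrix.cons_val_one, Matrix.cons_val_zero, Fin.isValue]
        rw [chh_sel_cast]
        simp [attR]
      · simp [attR])
    (by
      intro k
      fin_cases k
      · simp [attC]
      · simp only [Fin.mk_one, Matrix.cons_val_one, Matrix.cons_val_zero, Fin.isValue]
        rw [chh_sel_cast]
        simp [attC]
      · simp [attC])
    (by
      have hcl : ∀ (u : Unt h) (k : Fin 3), (∃ j' w'', u = .tr j' w'') →
          B (sel x s (.cl (.Hz j (par j.val x.val)) k)) (sel x t u) = true := by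
        rintro u k ⟨j', w'', rfl⟩
        rw [hg _ _ (by simp [low])]
        simp [Amat, sel]
      intro k k'
      fin_cases k <;> fin_cases k' <;> simp [Phi] <;>
        first
          | exact hcl _ _ ⟨_, _, rfl⟩
          | exact hL _ _
          | exact hf)
  exact hB rows cols hc

end Crest.Agent.OM
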