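import Crest.Agent.OM.Copy

/-! # S0066 (ordered-matrix removal counterexample): task CHN -/
set_option autoImplicit false

namespace Crest.Agent.OM
variable {h : ℕ}

/-- CHN: group `N`. `uR = ![cl N 0, tr 0 false, cl N 2]`, `uC = ![tr 0 false, cl N 1, cl N 2]`;
the centre `(tr 0 false, cl N 1)` is robust and `Amat = decide (1 ≠ 1) = false`. -/
theorem final_N (B : Lab h → Lab h → Bool) (hB : ∀ rows cols, ¬ IsCopy B rows cols)
    (x s t : Fin (2 ^ h)) (hg : Good B x s t)
    (h0 : B (sel x s (.tr 0 false)) (sel x t (.tr 0 false)) = true) : False := by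
  obtain ⟨rows, cols, hc⟩ := copy_of_att B x s t hg .N
    ![.cl .N 0, .tr 0 false, .cl .N 2]
    ![.tr 0 false, .cl .N 1, .cl .N 2]
    (by
      have h01 : sel x s (.cl .N 0) < sel x s (.tr 0 false) :=
        lt_of_k1_lt (by simp [k1, sel])
      have h12 : sel x s (.tr 0 false) < sel x s (.cl .N 2) :=
        lt_of_k1_lt (by simp [k1, sel])
      intro a b hab
      fin_cases a <;> fin_cases b <;> simp_all <;>
        first | exact h01 | exact h12 | exact h01.trans h12)
    (by
      have h01 : sel x t (.tr 0 false) < sel x t (.cl .N 1) :=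
        lt_of_k1_lt (by simp [k1, sel])
      have h12 : sel x t (.cl .N 1) < sel x t (.cl .N 2) := by
        simp only [sel]
        exact cl1_lt_cl2 _ _ _
      intro a b hab
      fin_cases a <;> fin_cases b <;> simp_all <;>
        first | exact h01 | exact h12 | exact h01.trans h12)
    (by intro k; fin_cases k <;> simp [isS, k1, sel])
    (by intro k; fin_cases k <;> simp [isS, k1, sel])
    (by intro k; fin_cases k <;> simp [attR])
    (by intro k; fin_cases k <;> simp [attC])
    (by
      have hrob : ∀ (u v : Unt h), ¬ (low u ∧ low v) →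
          B (sel x s u) (sel x t v) = Amat (sel x s u) (sel x t v) := fun u v huv => hg u v huv
      intro k k'
      fin_cases k <;> fin_cases k' <;> simp [Phi] <;>
        first
          | exact h0
          | (rw [hrob _ _ (by simp [low])]; simp [Amat, sel]))
  exact hB rows cols hc

end Crest.Agent.OM
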