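import Crest.Agent.OM.Good1

/-! # S0066 (ordered-matrix removal counterexample): task GOOD2 -/
set_option autoImplicit false

namespace Crest.Agent.OM
variable {h : ℕ}

/-- GOOD-2. Union bound: the bad triples are covered by the sets of GOOD-1 for `(r,c) ∈ D`, so there are at most
`|D| * 2^h < 4^h * 2^h = (2^h)^3` of them. -/
theorem good_triple (B : Lab h → Lab h → Bool)
    (hD : (Finset.univ.filter (fun p : Lab h × Lab h => Amat p.1 p.2 ≠ B p.1 p.2)).card < 4 ^ h) :
    ∃ x s t : Fin (2 ^ h), Good B x s t := by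
  classical
  by_contra hcon
  have h1 : ∀ p : Fin (2 ^ h) × Fin (2 ^ h) × Fin (2 ^ h), ∃ uv : Unt h × Unt h,
      ¬ (low uv.1 ∧ low uv.2) ∧
      B (sel p.1 p.2.1 uv.1) (sel p.1 p.2.2 uv.2) ≠ Amat (sel p.1 p.2.1 uv.1) (sel p.1 p.2.2 uv.2) := by
    intro p
    by_contra hp
    apply hcon
    refine ⟨p.1, p.2.1, p.2.2, ?_⟩
    intro u v huv
    by_contra hne
    exact hp ⟨(u, v), huv, hne⟩
  choose uv hlow hne using h1
  let f : Fin (2 ^ h) × Fin (2 ^ h) × Fin (2 ^ h) → Lab h × Lab h :=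
    fun p => (sel p.1 p.2.1 (uv p).1, sel p.1 p.2.2 (uv p).2)
  have h2 : (Finset.univ : Finset (Fin (2 ^ h) × Fin (2 ^ h) × Fin (2 ^ h))).card ≤
      2 ^ h * ((Finset.univ : Finset (Fin (2 ^ h) × Fin (2 ^ h) × Fin (2 ^ h))).image f).card := by
    apply Finset.card_le_mul_card_image
    intro a ha
    rw [Finset.mem_image] at ha
    obtain ⟨p₀, -, hp₀⟩ := ha
    have hlow_a : ¬ (low a.1.u ∧ low a.2.u) := by
      rw [← hp₀]; exact hlow p₀
    refine le_trans (Finset.card_le_card ?_) (card_sel_le a.1 a.2 hlow_a)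
    intro p hp
    simp only [Finset.mem_filter, Finset.mem_univ, true_and] at hp ⊢
    have e1 : sel p.1 p.2.1 (uv p).1 = a.1 := congrArg Prod.fst hp
    have e2 : sel p.1 p.2.2 (uv p).2 = a.2 := congrArg Prod.snd hp
    have u1 : (uv p).1 = a.1.u := by rw [← e1]; rfl
    have u2 : (uv p).2 = a.2.u := by rw [← e2]; rfl
    rw [← u1, ← u2]
    exact ⟨e1, e2⟩
  have h3 : ((Finset.univ : Finset (Fin (2 ^ h) × Fin (2 ^ h) × Fin (2 ^ h))).image f).card ≤
      (Finset.univ.filter (fun p : Lab h × Lab h => Amat p.1 p.2 ≠ B p.1 p.2)).card := by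
    apply Finset.card_le_card
    intro a ha
    rw [Finset.mem_image] at ha
    obtain ⟨p₀, -, hp₀⟩ := ha
    simp only [Finset.mem_filter, Finset.mem_univ, true_and]
    rw [← hp₀]
    exact (hne p₀).symm
  have h4 : (Finset.univ : Finset (Fin (2 ^ h) × Fin (2 ^ h) × Fin (2 ^ h))).card =
      2 ^ h * 4 ^ h := by
    rw [Finset.card_univ]
    simp only [Fintype.card_prod, Fintype.card_fin]
    have : (4 : ℕ) ^ h = 2 ^ h * 2 ^ h := by
      rw [← mul_pow]; norm_num
    rw [this]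
  rw [h4] at h2
  have h5 : 4 ^ h ≤ ((Finset.univ : Finset (Fin (2 ^ h) × Fin (2 ^ h) × Fin (2 ^ h))).image f).card :=
    Nat.le_of_mul_le_mul_left h2 (by positivity)
  omega

end Crest.Agent.OM
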