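import Crest.Agent.OM.ChB
import Crest.Agent.OM.ChV
import Crest.Agent.OM.ChH
import Crest.Agent.OM.ChN
import Crest.Agent.OM.Good

/-! # S0066 (ordered-matrix removal counterexample): task FAR (only `cell_all`) -/
set_option autoImplicit false

namespace Crest.Agent.OM
variable {h : ℕ}

/-- FAR-1: downward induction from `base_top` with `step_V`, `step_H`. -/
theorem cell_all (B : Lab h → Lab h → Bool) (hB : ∀ rows cols, ¬ IsCopy B rows cols)
    (x s t : Fin (2 ^ h)) (hg : Good B x s t) (j : Fin (h + 1)) (w w' : Bool) :
    B (sel x s (.tr j w)) (sel x t (.tr j w')) = true := by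
  revert w w'
  induction j using Fin.reverseInduction with
  | last => exact fun w w' => base_top B x s t hg w w'
  | cast j ih =>
    intro w w'
    exact step_H B hB x s t hg j (fun w w' => step_V B hB x s t hg j ih w w') w w'

theorem far (B : Lab h → Lab h → Bool) (hB : ∀ rows cols, ¬ IsCopy B rows cols) :
    4 ^ h ≤ (Finset.univ.filter (fun p : Lab h × Lab h => Amat p.1 p.2 ≠ B p.1 p.2)).card := by
  by_contra hlt
  obtain ⟨x, s, t, hg⟩ := good_triple B (not_le.mp hlt)
  exact final_N B hB x s t hg (cell_all B hB x s t hg 0 false false)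


end Crest.Agent.OM
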