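import Crest.Agent.OM.NiceDefs

/-! # S0066 (ordered-matrix removal counterexample): task HP -/
set_option autoImplicit false

namespace Crest.Agent.OM
variable {h : ℕ}

theorem Kc_symm (i l : ℕ) : Kc i l = Kc l i := by
  unfold Kc
  by_cases hil : i = l
  · subst hil; rfl
  · have : ¬ l = i := fun hh => hil hh.symm
    simp [hil, this]

/-! ### HP: facts on the pattern (all by unfolding `Hpat`, `Kc`; `omega`/`decide`/`simp`) -/
theorem Hpat_symm (i l : Fin 66) : Hpat i l = Hpat l i := by
  unfold Hpat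
  by_cases hi : i.val < 63 <;> by_cases hl : l.val < 63
  · simp only [hi, hl, if_true]; exact Kc_symm _ _
  · simp only [hi, hl, if_true, if_false]
  · simp only [hi, hl, if_true, if_false]
  · simp only [hi, hl, if_false]; rw [Bool.and_comm]
theorem Hpat_cc (i l : Fin 63) : Hpat (c63 i) (c63 l) = Kc i.val l.val := by
  have hi := i.2
  have hl := l.2
  simp [Hpat, c63, hi, hl]
theorem Hpat_ck (i : Fin 63) (k : Fin 3) : Hpat (c63 i) (k66 k) = decide (i.val = 60 + k.val) := by
  have hi := i.2
  simp only [Hpat, c63, k66, hi, if_true]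
  have : ¬ (63 + k.val < 63) := by omega
  simp only [this, if_false]
  apply decide_eq_decide.mpr
  omega
theorem Hpat_kc (k : Fin 3) (l : Fin 63) : Hpat (k66 k) (c63 l) = decide (l.val = 60 + k.val) := by
  rw [Hpat_symm, Hpat_ck]
theorem Hpat_kk (k k' : Fin 3) : Hpat (k66 k) (k66 k') = Phi k k' := by
  revert k k'
  decide
/-- every index is a context index or a core index -/
theorem idx_cases (i : Fin 66) : (∃ a : Fin 63, i = c63 a) ∨ (∃ k : Fin 3, i = k66 k) := by
  by_cases hi : i.val < 63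
  · left; exact ⟨⟨i.val, hi⟩, rfl⟩
  · right
    have := i.2
    refine ⟨⟨i.val - 63, by omega⟩, ?_⟩
    ext
    simp only [k66]
    omega
/-- every row of the pattern has a `true` entry -/
theorem Hpat_row_ne (i : Fin 66) : ∃ l, Hpat i l = true := by
  rcases idx_cases i with ⟨a, rfl⟩ | ⟨k, rfl⟩
  · refine ⟨c63 0, ?_⟩
    rw [Hpat_cc]
    unfold Kc
    by_cases ha : a.val = 0
    · simp [ha]
    · have : ¬ (a.val = (0 : Fin 63).val) := ha
      simp [this]
  · refine ⟨k66 0, ?_⟩
    rw [Hpat_kk]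
    revert k
    decide
/-- two different context columns of the pattern differ in some (context) row -/
theorem Hpat_col_ne {l l' : Fin 63} (hne : l ≠ l') : ∃ i : Fin 63, Hpat (c63 i) (c63 l) ≠ Hpat (c63 i) (c63 l') := by
  have hv : l.val ≠ l'.val := fun hh => hne (Fin.ext hh)
  by_cases hl : l.val = 0
  · -- then l' ≠ 0 : use row l'
    refine ⟨l', ?_⟩
    rw [Hpat_cc, Hpat_cc]
    have h1 : l'.val ≠ 0 := by omega
    have h2 : ¬ (l'.val = l.val) := fun hh => hv hh.symm
    simp [Kc, h1, h2]
  · refine ⟨l, ?_⟩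
    rw [Hpat_cc, Hpat_cc]
    simp [Kc, hl, hv]

theorem IsCopy.transpose {M : Lab h → Lab h → Bool} {rows cols : Fin 66 → Lab h}
    (hc : IsCopy M rows cols) : IsCopy (fun r c => M c r) cols rows :=
  ⟨hc.2.1, hc.1, fun i l => by show M (rows l) (cols i) = Hpat i l; rw [hc.2.2 l i, Hpat_symm]⟩

/-- no row / column of a copy is junk -/
theorem not_junk_row {M : Lab h → Lab h → Bool} (hM : Nice M) {rows cols : Fin 66 → Lab h}
    (hc : IsCopy M rows cols) (i : Fin 66) : ¬ isJ (rows i) := by
  intro hj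
  obtain ⟨l, hl⟩ := Hpat_row_ne i
  have h1 := hc.2.2 i l
  rw [hM.junkR _ _ hj, hl] at h1
  exact absurd h1 (by decide)


end Crest.Agent.OM
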