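import Crest.Agent.OM.NiceDefs

/-! # S0066 (ordered-matrix removal counterexample): task NICE1 -/
set_option autoImplicit false

namespace Crest.Agent.OM
variable {h : ℕ}

/-! ### NICE1: the easy fields (unfold `Amat`, case on the units) -/
theorem Amat_junkR (r c : Lab h) (hr : isJ r) : Amat r c = false := by
  obtain ⟨u, q⟩ := r
  cases u with
  | junk i => simp [Amat]
  | ctx g i => simp [isJ, k1] at hr
  | cl g k => 
    simp only [isJ, k1] at hr
    split_ifs at hr <;> omega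
  | tr j w => simp [isJ, k1] at hr
theorem Amat_junkC (r c : Lab h) (hc : isJ c) : Amat r c = false := by
  obtain ⟨v, q'⟩ := c
  obtain ⟨u, q⟩ := r
  cases v with
  | junk i => cases u <;> simp [Amat]
  | ctx g i => simp [isJ, k1] at hc
  | cl g k => 
    simp only [isJ, k1] at hc
    split_ifs at hc <;> omega
  | tr j w => simp [isJ, k1] at hc
theorem Amat_cc (g g' : Grp h) (i l : Fin 63) (s t : Fin (2 ^ h))
    (hh : Amat ⟨.ctx g i, s⟩ ⟨.ctx g' l, t⟩ = true) : g = g' := by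
  simp only [Amat, Bool.and_eq_true, decide_eq_true_eq] at hh
  exact hh.1

theorem isC_iff (r : Lab h) : isC r ↔ ∃ g i, r.u = .ctx g i := by
  obtain ⟨u, q⟩ := r
  cases u with
  | junk i => simp [isC, k1]
  | ctx g i => simp [isC, k1]
  | cl g k => 
    simp only [isC, k1]
    constructor
    · intro hh; split_ifs at hh <;> omega
    · rintro ⟨g, i, hh⟩; simp at hh
  | tr j w => simp [isC, k1]

theorem attC_ctx (g g' : Grp h) (i : Fin 63) (q : ℕ) : attC g (.ctx g' i) q = none := by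
  cases g <;> rfl
theorem attR_ctx (g g' : Grp h) (i : Fin 63) (q : ℕ) : attR g (.ctx g' i) q = none := by
  cases g <;> rfl

theorem Amat_twinR (r r' c : Lab h) (hr : isC r) (hu : r.u = r'.u) : Amat r c = Amat r' c := by
  obtain ⟨g, i, hgi⟩ := (isC_iff r).1 hr
  obtain ⟨u, q⟩ := r
  obtain ⟨u', q'⟩ := r'
  obtain ⟨v, p⟩ := c
  simp only at hu hgi
  subst hu
  subst hgi
  cases v <;> simp [Amat]
theorem Amat_twinC (r c c' : Lab h) (hc : isC c) (hu : c.u = c'.u) : Amat r c = Amat r c' := by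
  obtain ⟨g, i, hgi⟩ := (isC_iff c).1 hc
  obtain ⟨u, q⟩ := c
  obtain ⟨u', q'⟩ := c'
  obtain ⟨v, p⟩ := r
  simp only at hu hgi
  subst hu
  subst hgi
  cases v <;> simp [Amat]
/-- for a special row, `Amat r ⟨ctx g l, t⟩ = sigOK (attR g r.u r.q) l` -/
theorem Amat_S_ctx (r : Lab h) (hs : isS r) (g : Grp h) (l : Fin 63) (t : Fin (2 ^ h)) :
    Amat r ⟨.ctx g l, t⟩ = sigOK (attR g r.u r.q.val) l.val := by
  obtain ⟨u, q⟩ := r
  cases u with
  | junk i => simp [isS, k1] at hs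
  | ctx g i => simp [isS, k1] at hs
  | cl g k => simp [Amat]
  | tr j w => simp [Amat]
theorem Amat_ctx_S (c : Lab h) (hs : isS c) (g : Grp h) (i : Fin 63) (s : Fin (2 ^ h)) :
    Amat ⟨.ctx g i, s⟩ c = sigOK (attC g c.u c.q.val) i.val := by
  obtain ⟨u, q⟩ := c
  cases u with
  | junk i => simp [isS, k1] at hs
  | ctx g i => simp [isS, k1] at hs
  | cl g k => simp [Amat]
  | tr j w => simp [Amat]

theorem sigOK_uniq (o : Option (Fin 3)) (i i' : ℕ) (h1 : sigOK o i = true) (h2 : sigOK o i' = true) :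
    i = i' := by
  cases o with
  | none => simp [sigOK] at h1
  | some k =>
    simp only [sigOK, decide_eq_true_eq] at h1 h2
    omega

theorem Amat_uniqR (r : Lab h) (g : Grp h) (l l' : Fin 63) (t t' : Fin (2 ^ h)) (hs : isS r)
    (h1 : Amat r ⟨.ctx g l, t⟩ = true) (h2 : Amat r ⟨.ctx g l', t'⟩ = true) : l = l' := by
  rw [Amat_S_ctx r hs] at h1 h2
  exact Fin.ext (sigOK_uniq _ _ _ h1 h2)
theorem Amat_uniqC (c : Lab h) (g : Grp h) (i i' : Fin 63) (s s' : Fin (2 ^ h)) (hs : isS c)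
    (h1 : Amat ⟨.ctx g i, s⟩ c = true) (h2 : Amat ⟨.ctx g i', s'⟩ c = true) : i = i' := by
  rw [Amat_ctx_S c hs] at h1 h2
  exact Fin.ext (sigOK_uniq _ _ _ h1 h2)


end Crest.Agent.OM
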