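import Crest.Agent.OM.Good1
import Crest.Agent.OM.Hp
import Crest.Agent.OM.Nice1

/-! # S0066 (ordered-matrix removal counterexample): task COPY -/
set_option autoImplicit false

namespace Crest.Agent.OM
variable {h : ℕ}

namespace CopyAux

theorem sel_ctx (x s : Fin (2 ^ h)) (g : Grp h) (i : Fin 63) :
    sel x s (.ctx g i) = ⟨.ctx g i, s⟩ := by
  simp [sel, low]

theorem not_low_ctx (g : Grp h) (i : Fin 63) : ¬ low (Unt.ctx g i) := by
  simp [low]

/-- the line selection -/
def line (x s : Fin (2 ^ h)) (g : Grp h) (uR : Fin 3 → Unt h) (i : Fin 66) : Lab h :=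
  if hi : i.val < 63 then sel x s (.ctx g ⟨i.val, hi⟩)
  else sel x s (uR ⟨i.val - 63, by have := i.2; omega⟩)

theorem line_c (x s : Fin (2 ^ h)) (g : Grp h) (uR : Fin 3 → Unt h) (a : Fin 63) :
    line x s g uR (c63 a) = sel x s (.ctx g a) := by
  have ha : (c63 a).val < 63 := a.2
  simp only [line, dif_pos ha]
  rfl

theorem line_k (x s : Fin (2 ^ h)) (g : Grp h) (uR : Fin 3 → Unt h) (k : Fin 3) :
    line x s g uR (k66 k) = sel x s (uR k) := by
  have hk : ¬ (k66 k).val < 63 := by simp [k66]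
  simp only [line, dif_neg hk]
  congr 2
  ext
  simp [k66]

theorem line_strictMono (x s : Fin (2 ^ h)) (g : Grp h) (uR : Fin 3 → Unt h)
    (hR : StrictMono (fun k => sel x s (uR k))) (hRs : ∀ k, isS (sel x s (uR k))) :
    StrictMono (line x s g uR) := by
  intro i i' hii
  rcases idx_cases i with ⟨a, rfl⟩ | ⟨k, rfl⟩ <;> rcases idx_cases i' with ⟨a', rfl⟩ | ⟨k', rfl⟩
  · rw [line_c, line_c, sel_ctx, sel_ctx]
    apply ctx_lt_ctx
    have : (c63 a).val < (c63 a').val := hii
    exact this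
  · rw [line_c, line_k, sel_ctx]
    apply lt_of_k1_lt
    have h2 : 2 ≤ k1 (sel x s (uR k')) := hRs k'
    have h1 : k1 (⟨.ctx g a, s⟩ : Lab h) = 1 := rfl
    omega
  · exfalso
    have h1 : (k66 k).val < (c63 a').val := hii
    have h2 := a'.2
    simp only [k66, c63] at h1
    omega
  · rw [line_k, line_k]
    apply hR
    have h1 : (k66 k).val < (k66 k').val := hii
    simp only [k66] at h1
    show k.val < k'.val
    omega

end CopyAux

open CopyAux in
/-- COPY.  rows i = sel x s (ctx g i) for i < 63, sel x s (uR (i-63)) for i ≥ 63; same for columns with t.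
Strict monotonicity: `ctx_lt_ctx`, `lt_of_k1_lt` (k1 = 1 < 2 ≤ k1 of an S label), `hR`.
Entries: none of the pairs involving a ctx unit is (low,low), so `B = Amat` there by `hg`;
`Amat` on ctx×ctx is `Kc`, on ctx×S is `sigOK (attC ..)` (`Amat_ctx_S`), on S×ctx `sigOK (attR ..)` (`Amat_S_ctx`);
compare with `Hpat_cc, Hpat_ck, Hpat_kc, Hpat_kk` through `idx_cases`. -/
theorem copy_of_att (B : Lab h → Lab h → Bool) (x s t : Fin (2 ^ h)) (hg : Good B x s t)
    (g : Grp h) (uR uC : Fin 3 → Unt h)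
    (hR : StrictMono (fun k => sel x s (uR k))) (hC : StrictMono (fun k => sel x t (uC k)))
    (hRs : ∀ k, isS (sel x s (uR k))) (hCs : ∀ k, isS (sel x t (uC k)))
    (hRa : ∀ k, attR g (uR k) (sel x s (uR k)).q.val = some k)
    (hCa : ∀ k, attC g (uC k) (sel x t (uC k)).q.val = some k)
    (hcore : ∀ k k' : Fin 3, B (sel x s (uR k)) (sel x t (uC k')) = Phi k k') :
    ∃ rows cols, IsCopy B rows cols := by
  refine ⟨line x s g uR, line x t g uC, line_strictMono x s g uR hR hRs,
    line_strictMono x t g uC hC hCs, ?_⟩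
  intro i l
  rcases idx_cases i with ⟨a, rfl⟩ | ⟨k, rfl⟩ <;> rcases idx_cases l with ⟨a', rfl⟩ | ⟨k', rfl⟩
  · rw [line_c, line_c, hg _ _ (fun hh => not_low_ctx g a hh.1), Hpat_cc, sel_ctx, sel_ctx]
    simp [Amat]
  · rw [line_c, line_k, hg _ _ (fun hh => not_low_ctx g a hh.1), Hpat_ck, sel_ctx,
      Amat_ctx_S _ (hCs k')]
    have := hCa k'
    have hu : (sel x t (uC k')).u = uC k' := rfl
    rw [hu, this]
    rfl
  · rw [line_k, line_c, hg _ _ (fun hh => not_low_ctx g a' hh.2), Hpat_kc, sel_ctx,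
      Amat_S_ctx _ (hRs k)]
    have := hRa k
    have hu : (sel x s (uR k)).u = uR k := rfl
    rw [hu, this]
    rfl
  · rw [line_k, line_k, hcore, Hpat_kk]

end Crest.Agent.OM
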