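import Crest.Agent.OM.Nice1

/-! # S0066 (ordered-matrix removal counterexample): task J2 -/
set_option autoImplicit false

namespace Crest.Agent.OM
variable {h : ℕ}

theorem isS_unit28 {r : Lab h} (hr : isS r) :
    (∃ (g : Grp h) (k : Fin 3), r.u = .cl g k) ∨ (∃ (j : Fin (h + 1)) (w : Bool), r.u = .tr j w) := by
  obtain ⟨u, q⟩ := r
  cases u with
  | junk i => simp [isS, k1] at hr
  | ctx g i => simp [isS, k1] at hr
  | cl g k => exact Or.inl ⟨g, k, rfl⟩
  | tr j w => exact Or.inr ⟨j, w, rfl⟩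

/-! ### J2: no `[[0,1],[1,0]]` on special rows × special columns.
`r, r'` have a `false` entry on a special column, so they are not `cl` (a `cl` row is `true` on all
special columns): they are `tr`.  A `cl` column is constant on `tr` rows, so `c, c'` are `tr`.
Then apply `J2_arith` with `a = rep ..` of `r` etc. (`rep_le_of_lt`, `rep_div` to rewrite
`q / 2^(max ..)` as `rep / 2^(max ..)`). -/
theorem J2_free {r r' c c' : Lab h} (hr : r < r') (hc : c < c') (hsr : isS r) (hsc : isS c)
    (h00 : Amat r c = false) (h01 : Amat r c' = true) (h10 : Amat r' c = true)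
    (h11 : Amat r' c' = false) : False := by
  have hsr' : isS r' := isS_of_le hr.le hsr
  have hsc' : isS c' := isS_of_le hc.le hsc
  obtain ⟨ur, qr⟩ := r
  obtain ⟨ur', qr'⟩ := r'
  obtain ⟨uc, qc⟩ := c
  obtain ⟨uc', qc'⟩ := c'
  rcases isS_unit28 hsr with ⟨g, k, hu⟩ | ⟨p, w, hu⟩
  · simp only at hu; subst hu
    rcases isS_unit28 hsc with ⟨g2, k2, hu2⟩ | ⟨s, v, hu2⟩ <;> simp only at hu2 <;> subst hu2 <;>
      simp [Amat] at h00
  simp only at hu; subst hu
  rcases isS_unit28 hsr' with ⟨g, k, hu⟩ | ⟨p', w', hu⟩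
  · simp only at hu; subst hu
    rcases isS_unit28 hsc' with ⟨g2, k2, hu2⟩ | ⟨s, v, hu2⟩ <;> simp only at hu2 <;> subst hu2 <;>
      simp [Amat] at h11
  simp only at hu; subst hu
  rcases isS_unit28 hsc with ⟨g, k, hu⟩ | ⟨s, v, hu⟩
  · simp only at hu; subst hu
    simp only [Amat] at h00 h10
    rw [h00] at h10
    exact Bool.noConfusion h10
  simp only at hu; subst hu
  rcases isS_unit28 hsc' with ⟨g, k, hu⟩ | ⟨s', v', hu⟩
  · simp only at hu; subst hu
    simp only [Amat] at h01 h11
    rw [h01] at h11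
    exact Bool.noConfusion h11
  simp only at hu; subst hu
  simp only [Amat, decide_eq_true_eq, decide_eq_false_iff_not] at h00 h01 h10 h11
  refine J2_arith (a := rep p.val w qr.val) (a' := rep p'.val w' qr'.val)
    (e := rep s.val v qc.val) (e' := rep s'.val v' qc'.val)
    (p := p.val) (p' := p'.val) (s := s.val) (s' := s'.val)
    (rep_le_of_lt hr) (rep_le_of_lt hc) ?_ ?_ ?_ ?_
  · rw [rep_div _ _ _ _ (le_max_left _ _), rep_div _ _ _ _ (le_max_right _ _)]; exact h00
  · rw [rep_div _ _ _ _ (le_max_left _ _), rep_div _ _ _ _ (le_max_right _ _)]; exact h01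
  · rw [rep_div _ _ _ _ (le_max_left _ _), rep_div _ _ _ _ (le_max_right _ _)]; exact h10
  · rw [rep_div _ _ _ _ (le_max_left _ _), rep_div _ _ _ _ (le_max_right _ _)]; exact h11

end Crest.Agent.OM
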