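import Crest.Agent.OM.Nice2
import Crest.Agent.OM.Nice3
import Crest.Agent.OM.J2

/-! # S0066 (ordered-matrix removal counterexample): assembly (no task) -/
set_option autoImplicit false

namespace Crest.Agent.OM
variable {h : ℕ}

theorem nice_Amat : Nice (Amat (h := h)) where
  junkR := Amat_junkR
  junkC := Amat_junkC
  cc := Amat_cc
  twinR := Amat_twinR
  twinC := Amat_twinC
  uniqR := Amat_uniqR
  uniqC := Amat_uniqC
  fewR := Amat_fewR
  fewC := Amat_fewC


end Crest.Agent.OM
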