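import Crest.Agent.OM.Hp
import Crest.Agent.OM.Nice

/-! # S0066 (ordered-matrix removal counterexample): task COREC (mirror image of CORER, see OM/CoreR.lean for the proof idea) -/
set_option autoImplicit false

namespace Crest.Agent.OM
variable {h : ℕ}

theorem sigOK_eq_some' {o : Option (Fin 3)} {k : Fin 3} (hs : sigOK o (60 + k.val) = true) :
    o = some k := by
  cases o with
  | none => simp [sigOK] at hs
  | some k' =>
    simp only [sigOK, decide_eq_true_eq] at hs
    congr 1
    ext
    omega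

theorem c63_lt_k66' (i : Fin 63) (k : Fin 3) : c63 i < k66 k := by
  show i.val < 63 + k.val
  omega

theorem k66_zero_le' (k : Fin 3) : k66 0 ≤ k66 k := by
  show 63 + (0 : Fin 3).val ≤ 63 + k.val
  simp

/-- CORE-C: the same for columns. -/
theorem core_cols {rows cols : Fin 66 → Lab h} (hc : IsCopy Amat rows cols) (g : Grp h)
    (hr : ∀ i : Fin 63, (rows (c63 i)).u = .ctx g i) (hcl : ∀ l : Fin 63, (cols (c63 l)).u = .ctx g l)
    (k : Fin 3) :
    isS (cols (k66 k)) ∧ attC g (cols (k66 k)).u (cols (k66 k)).q.val = some k := by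
  have hcol : ∀ l : Fin 63, cols (c63 l) = ⟨.ctx g l, (cols (c63 l)).q⟩ := fun l =>
    Lab.ext (hcl l) rfl
  have hrow : ∀ i : Fin 63, rows (c63 i) = ⟨.ctx g i, (rows (c63 i)).q⟩ := fun i =>
    Lab.ext (hr i) rfl
  have hS0 : isS (cols (k66 0)) := by
    have hnj : ¬ isJ (cols (k66 0)) := not_junk_row nice_Amat.transpose hc.transpose (k66 0)
    by_contra hnS
    obtain ⟨g', i', hu⟩ : ∃ g' i', (cols (k66 0)).u = .ctx g' i' := by
      rcases hu : (cols (k66 0)).u with i | ⟨g', i'⟩ | ⟨g', k'⟩ | ⟨j, w⟩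
      · exact absurd (by simp [isJ, k1, hu]) hnj
      · exact ⟨g', i', rfl⟩
      · refine absurd ?_ hnS
        simp only [isS, k1, hu]
        split <;> omega
      · exact absurd (by simp [isS, k1, hu]) hnS
    have hrk : cols (k66 0) = ⟨.ctx g' i', (cols (k66 0)).q⟩ := Lab.ext hu rfl
    have h1 : Amat (rows (c63 60)) (cols (k66 0)) = true := by
      rw [hc.2.2, Hpat_ck]; decide
    rw [hrk, hrow 60] at h1
    have hg : g = g' := Amat_cc _ _ _ _ _ _ h1
    subst hg
    have hlt : cols (c63 62) < cols (k66 0) := hc.2.1 (c63_lt_k66' 62 0)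
    rw [hrk, hcol 62] at hlt
    have hle : (62 : Fin 63) ≤ i' := ctx_unit_le hlt.le
    have hi' : i' = 62 := by
      apply le_antisymm _ hle
      show i'.val ≤ 62
      have := i'.isLt
      omega
    subst hi'
    have hC : isC (cols (c63 62)) := by simp [isC, k1, hcl 62]
    have htw := Amat_twinC (rows (c63 0)) (cols (c63 62)) (cols (k66 0)) hC (by rw [hcl 62, hu])
    rw [hc.2.2, hc.2.2, Hpat_cc, Hpat_ck] at htw
    revert htw
    decide
  have hS : isS (cols (k66 k)) := isS_of_le (hc.2.1.monotone (k66_zero_le' k)) hS0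
  refine ⟨hS, ?_⟩
  have hk : 60 + k.val < 63 := by have := k.isLt; omega
  have h2 : Amat (rows (c63 ⟨60 + k.val, hk⟩)) (cols (k66 k)) = true := by
    rw [hc.2.2, Hpat_ck]; simp
  rw [hrow, Amat_ctx_S _ hS] at h2
  exact sigOK_eq_some' h2


end Crest.Agent.OM
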