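import Crest.Agent.OM.Hp
import Crest.Agent.OM.Nice

/-! # S0066 (ordered-matrix removal counterexample): task CORER -/
set_option autoImplicit false

namespace Crest.Agent.OM
variable {h : ℕ}

theorem sigOK_eq_some {o : Option (Fin 3)} {k : Fin 3} (hs : sigOK o (60 + k.val) = true) :
    o = some k := by
  cases o with
  | none => simp [sigOK] at hs
  | some k' =>
    simp only [sigOK, decide_eq_true_eq] at hs
    congr 1
    ext
    omega

theorem c63_lt_k66 (i : Fin 63) (k : Fin 3) : c63 i < k66 k := by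
  show i.val < 63 + k.val
  omega

theorem k66_zero_le (k : Fin 3) : k66 0 ≤ k66 k := by
  show 63 + (0 : Fin 3).val ≤ 63 + k.val
  simp

/-- CORE-R.  `rows (k66 0)` is S: it is not junk; if it were C, then `Amat (rows 63) (cols 60) = true` and `cc` put it
in the group `g`, `ctx_unit_le` (it is above `rows 62`, unit 62) puts it in unit 62, `twinR` makes pattern rows 62 and 63
equal, but `Hpat 62 0 = true`, `Hpat 63 0 = false`.  So all three core rows are S (`isS_of_le`).
Then `Amat (rows (k66 k)) (cols (c63 (60+k))) = true` and `Amat_S_ctx` give `sigOK (attR ..) (60+k) = true`. -/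
theorem core_rows {rows cols : Fin 66 → Lab h} (hc : IsCopy Amat rows cols) (g : Grp h)
    (hr : ∀ i : Fin 63, (rows (c63 i)).u = .ctx g i) (hcl : ∀ l : Fin 63, (cols (c63 l)).u = .ctx g l)
    (k : Fin 3) :
    isS (rows (k66 k)) ∧ attR g (rows (k66 k)).u (rows (k66 k)).q.val = some k := by
  have hcol : ∀ l : Fin 63, cols (c63 l) = ⟨.ctx g l, (cols (c63 l)).q⟩ := fun l =>
    Lab.ext (hcl l) rfl
  have hrow : ∀ i : Fin 63, rows (c63 i) = ⟨.ctx g i, (rows (c63 i)).q⟩ := fun i =>
    Lab.ext (hr i) rfl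
  have hS0 : isS (rows (k66 0)) := by
    have hnj : ¬ isJ (rows (k66 0)) := not_junk_row nice_Amat hc (k66 0)
    by_contra hnS
    -- so it is a context row
    obtain ⟨g', i', hu⟩ : ∃ g' i', (rows (k66 0)).u = .ctx g' i' := by
      rcases hu : (rows (k66 0)).u with i | ⟨g', i'⟩ | ⟨g', k'⟩ | ⟨j, w⟩
      · exact absurd (by simp [isJ, k1, hu]) hnj
      · exact ⟨g', i', rfl⟩
      · refine absurd ?_ hnS
        simp only [isS, k1, hu]
        split <;> omega
      · exact absurd (by simp [isS, k1, hu]) hnS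
    have hrk : rows (k66 0) = ⟨.ctx g' i', (rows (k66 0)).q⟩ := Lab.ext hu rfl
    have h1 : Amat (rows (k66 0)) (cols (c63 60)) = true := by
      rw [hc.2.2, Hpat_kc]; decide
    rw [hrk, hcol 60] at h1
    have hg : g' = g := Amat_cc _ _ _ _ _ _ h1
    subst hg
    have hlt : rows (c63 62) < rows (k66 0) := hc.1 (c63_lt_k66 62 0)
    rw [hrk, hrow 62] at hlt
    have hle : (62 : Fin 63) ≤ i' := ctx_unit_le hlt.le
    have hi' : i' = 62 := by
      apply le_antisymm _ hle
      show i'.val ≤ 62
      have := i'.isLt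
      omega
    subst hi'
    have hC : isC (rows (c63 62)) := by simp [isC, k1, hr 62]
    have htw := Amat_twinR (rows (c63 62)) (rows (k66 0)) (cols (c63 0)) hC (by rw [hr 62, hu])
    rw [hc.2.2, hc.2.2, Hpat_cc, Hpat_kc] at htw
    revert htw
    decide
  have hS : isS (rows (k66 k)) := isS_of_le (hc.1.monotone (k66_zero_le k)) hS0
  refine ⟨hS, ?_⟩
  have hk : 60 + k.val < 63 := by have := k.isLt; omega
  have h2 : Amat (rows (k66 k)) (cols (c63 ⟨60 + k.val, hk⟩)) = true := by
    rw [hc.2.2, Hpat_kc]; simp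
  rw [hcol, Amat_S_ctx _ hS] at h2
  exact sigOK_eq_some h2


end Crest.Agent.OM
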