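import Crest.Agent.OM.CtxA
import Crest.Agent.OM.Nice

/-! # S0066 (ordered-matrix removal counterexample): task CTX -/
set_option autoImplicit false

namespace Crest.Agent.OM
variable {h : ℕ}

/-- CTX: by `J2_free` on rows 61,62 / columns 61,62 not both `rows 61` and `cols 61` are S, and they are not junk;
apply `ctx_caseA` to `Amat` or to its transpose. -/
theorem ctx_part {rows cols : Fin 66 → Lab h} (hc : IsCopy Amat rows cols) :
    ∃ g : Grp h, (∀ i : Fin 63, (rows (c63 i)).u = .ctx g i) ∧
      (∀ l : Fin 63, (cols (c63 l)).u = .ctx g l) := by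
  have hnjR : ¬ isJ (rows (c63 61)) := not_junk_row nice_Amat hc _
  have hnjC : ¬ isJ (cols (c63 61)) := not_junk_row nice_Amat.transpose hc.transpose _
  have hlt : c63 61 < c63 62 := by decide
  rcases class_cases28 (cols (c63 61)) with hj | hC | hS
  · exact absurd hj hnjC
  · exact ctx_caseA nice_Amat hc hC
  · rcases class_cases28 (rows (c63 61)) with hj' | hC' | hS'
    · exact absurd hj' hnjR
    · obtain ⟨g, h1, h2⟩ := ctx_caseA nice_Amat.transpose hc.transpose hC'
      exact ⟨g, h2, h1⟩
    · exfalso
      refine J2_free (hc.1 hlt) (hc.2.1 hlt) hS' hS ?_ ?_ ?_ ?_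
      · rw [hc.2.2]; decide
      · rw [hc.2.2]; decide
      · rw [hc.2.2]; decide
      · rw [hc.2.2]; decide

end Crest.Agent.OM
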