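import Crest.Agent.OM.Hp

/-! # S0066 (ordered-matrix removal counterexample): task CTXA -/
set_option autoImplicit false

namespace Crest.Agent.OM
variable {h : ℕ}

theorem isC_unit28 {r : Lab h} (hr : isC r) : ∃ (g : Grp h) (i : Fin 63), r.u = .ctx g i := by
  obtain ⟨u, q⟩ := r
  cases u with
  | junk i => simp [isC, k1] at hr
  | ctx g i => exact ⟨g, i, rfl⟩
  | cl g k =>
    simp only [isC, k1] at hr
    split_ifs at hr <;> omega
  | tr j w => simp [isC, k1] at hr

theorem class_cases28 (r : Lab h) : isJ r ∨ isC r ∨ isS r := by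
  unfold isJ isC isS; omega

theorem lab_eta28 {r : Lab h} {u : Unt h} (hu : r.u = u) : r = ⟨u, r.q⟩ := by
  cases r; cases hu; rfl

theorem strictMono_fin_eq_id28 {n : ℕ} {f : Fin n → Fin n} (hf : StrictMono f) (i : Fin n) :
    f i = i := le_antisymm hf.apply_le hf.le_apply

theorem Kc_ne28 {i l : ℕ} (hne : i ≠ l) : Kc i l = true := by
  simp [Kc, hne]

theorem Kc_zero_left28 (l : ℕ) : Kc 0 l = true := by
  simp [Kc]

theorem Kc_zero_right28 (i : ℕ) : Kc i 0 = true := by
  unfold Kc
  by_cases hi : i = 0 <;> simp [hi]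

/-- CTXA (abstract case A of the rigidity proof; see the blueprint on the board).
Write X i = rows (c63 i), Y l = cols (c63 l).
 0. Y l is C for l ≤ 61 (Y l ≤ Y 61, `k1_mono`, not junk).
 1. X 0 is C: otherwise it is S (not junk) and `fewR` for Y 0..Y 5 (row 0 of the pattern is all ones there)
    gives two columns in the same unit, `twinC` makes two pattern columns equal, contradiction `Hpat_col_ne`.
 2. g := group of X 0; all Y l (l ≤ 61) are in g by `cc`.
 3. every X i (i ≤ 62) is C: otherwise S; take l ≠ l' in {1,2,3} \ {i}: both entries are true, `uniqR` gives the same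
    unit, `twinC`, contradiction.
 4. every X i is in g (`cc` with Y 0, Kc i 0 = true).
 5. Y 62 is C: otherwise S; entries (X 0, Y 62), (X 1, Y 62) are true, `uniqC` gives the same unit for X 0, X 1,
    `twinR` makes pattern rows 0 and 1 equal: contradiction (use Hpat_symm + Hpat_col_ne). Y 62 in g by `cc`.
 6. i ↦ unit of X i is a strictly monotone map Fin 63 → Fin 63 (`ctx_unit_le`; injective by twinR), hence the identity.
    Same for Y. -/
theorem ctx_caseA {M : Lab h → Lab h → Bool} (hM : Nice M) {rows cols : Fin 66 → Lab h}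
    (hc : IsCopy M rows cols) (h61 : isC (cols (c63 61))) :
    ∃ g : Grp h, (∀ i : Fin 63, (rows (c63 i)).u = .ctx g i) ∧
      (∀ l : Fin 63, (cols (c63 l)).u = .ctx g l) := by
  obtain ⟨hrm, hcm, hent⟩ := hc
  have hc' : IsCopy M rows cols := ⟨hrm, hcm, hent⟩
  have hnjR : ∀ i, ¬ isJ (rows i) := fun i => not_junk_row hM hc' i
  have hnjC : ∀ l, ¬ isJ (cols l) := fun l => not_junk_row hM.transpose hc'.transpose l
  have hE : ∀ i l : Fin 63, M (rows (c63 i)) (cols (c63 l)) = Kc i.val l.val := fun i l => by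
    rw [hent, Hpat_cc]
  have c63_mono : StrictMono c63 := fun a b hab => by
    show (c63 a).val < (c63 b).val
    exact hab
  -- injectivity of units
  have colInj : ∀ l l' : Fin 63, l ≠ l' → isC (cols (c63 l)) →
      (cols (c63 l)).u ≠ (cols (c63 l')).u := by
    intro l l' hne hC hu
    obtain ⟨i, hi⟩ := Hpat_col_ne hne
    apply hi
    rw [← hent, ← hent]
    exact hM.twinC _ _ _ hC hu
  have rowInj : ∀ i i' : Fin 63, i ≠ i' → isC (rows (c63 i)) →
      (rows (c63 i)).u ≠ (rows (c63 i')).u := by
    intro i i' hne hC hu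
    obtain ⟨l, hl⟩ := Hpat_col_ne hne
    apply hl
    rw [Hpat_symm (c63 l) (c63 i), Hpat_symm (c63 l) (c63 i'), ← hent, ← hent]
    exact hM.twinR _ _ _ hC hu
  -- step 0
  have hY : ∀ l : Fin 63, l.val ≤ 61 → isC (cols (c63 l)) := by
    intro l hl
    have hle : cols (c63 l) ≤ cols (c63 61) := hcm.monotone (by
      show (c63 l).val ≤ (c63 61).val
      exact hl)
    have h1 := k1_mono hle
    have h2 := hnjC (c63 l)
    unfold isC isJ at *
    omega
  -- step 1
  have hX0 : isC (rows (c63 0)) := by
    rcases class_cases28 (rows (c63 0)) with hj | hC | hS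
    · exact absurd hj (hnjR _)
    · exact hC
    · exfalso
      obtain ⟨l, l', hne, hu⟩ := hM.fewR (rows (c63 0))
        (fun l : Fin 6 => cols (c63 ⟨l.val, by omega⟩)) hS
        (fun l => hY _ (by show l.val ≤ 61; omega))
        (fun l => by rw [hE]; exact Kc_zero_left28 _)
      refine colInj ⟨l.val, by omega⟩ ⟨l'.val, by omega⟩ ?_ (hY _ (by show l.val ≤ 61; omega)) hu
      intro heq
      apply hne
      ext
      simpa using congrArg Fin.val heq
  obtain ⟨g, i0, hg0⟩ := isC_unit28 hX0
  -- step 2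
  have hYg : ∀ l : Fin 63, isC (cols (c63 l)) → ∃ l' : Fin 63, (cols (c63 l)).u = .ctx g l' := by
    intro l hC
    obtain ⟨g', l', hu⟩ := isC_unit28 hC
    have h1 := hE 0 l
    rw [lab_eta28 hg0, lab_eta28 hu] at h1
    have := hM.cc g g' i0 l' _ _ (h1.trans (Kc_zero_left28 _))
    subst this
    exact ⟨l', hu⟩
  -- step 3
  have hX : ∀ i : Fin 63, isC (rows (c63 i)) := by
    intro i
    rcases class_cases28 (rows (c63 i)) with hj | hC | hS
    · exact absurd hj (hnjR _)
    · exact hC
    · exfalso
      -- two indices in {1,2,3} different from i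
      obtain ⟨l, l', hll, hl, hl', hli, hli'⟩ : ∃ l l' : Fin 63, l ≠ l' ∧ l.val ≤ 61 ∧ l'.val ≤ 61 ∧
          i.val ≠ l.val ∧ i.val ≠ l'.val := by
        by_cases h1 : i.val = 1
        · exact ⟨2, 3, by decide, by decide, by decide, by rw [h1]; decide, by rw [h1]; decide⟩
        · by_cases h2 : i.val = 2
          · exact ⟨1, 3, by decide, by decide, by decide, by rw [h2]; decide, by rw [h2]; decide⟩
          · exact ⟨1, 2, by decide, by decide, by decide, h1, h2⟩
      obtain ⟨a, ha⟩ := hYg l (hY l hl)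
      obtain ⟨a', ha'⟩ := hYg l' (hY l' hl')
      have e1 := hE i l
      have e2 := hE i l'
      rw [lab_eta28 ha, Kc_ne28 hli] at e1
      rw [lab_eta28 ha', Kc_ne28 hli'] at e2
      have := hM.uniqR _ g a a' _ _ hS e1 e2
      subst this
      exact colInj l l' hll (hY l hl) (ha.trans ha'.symm)
  -- step 4
  have hXg : ∀ i : Fin 63, ∃ i' : Fin 63, (rows (c63 i)).u = .ctx g i' := by
    intro i
    obtain ⟨g', i', hu⟩ := isC_unit28 (hX i)
    obtain ⟨a, ha⟩ := hYg 0 (hY 0 (by decide))
    have h1 := hE i 0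
    rw [lab_eta28 hu, lab_eta28 ha] at h1
    have := hM.cc g' g i' a _ _ (h1.trans (Kc_zero_right28 _))
    subst this
    exact ⟨i', hu⟩
  -- step 5
  have hYall : ∀ l : Fin 63, isC (cols (c63 l)) := by
    intro l
    rcases class_cases28 (cols (c63 l)) with hj | hC | hS
    · exact absurd hj (hnjC _)
    · exact hC
    · exfalso
      obtain ⟨i, i', hii, hil, hil'⟩ : ∃ i i' : Fin 63, i ≠ i' ∧ i.val ≠ l.val ∧ i'.val ≠ l.val := by
        by_cases h1 : l.val = 1
        · exact ⟨2, 3, by decide, by rw [h1]; decide, by rw [h1]; decide⟩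
        · by_cases h2 : l.val = 2
          · exact ⟨1, 3, by decide, by rw [h2]; decide, by rw [h2]; decide⟩
          · exact ⟨1, 2, by decide, fun hh => h1 hh.symm, fun hh => h2 hh.symm⟩
      obtain ⟨a, ha⟩ := hXg i
      obtain ⟨a', ha'⟩ := hXg i'
      have e1 := hE i l
      have e2 := hE i' l
      rw [lab_eta28 ha, Kc_ne28 hil] at e1
      rw [lab_eta28 ha', Kc_ne28 hil'] at e2
      have := hM.uniqC _ g a a' _ _ hS e1 e2
      subst this
      exact rowInj i i' hii (hX i) (ha.trans ha'.symm)
  -- step 6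
  choose f hf using hXg
  choose f' hf' using fun l => hYg l (hYall l)
  have hfm : StrictMono f := by
    intro i i' hii
    have hlt : rows (c63 i) < rows (c63 i') := hrm (c63_mono hii)
    have hle : f i ≤ f i' := by
      have := hlt.le
      rw [lab_eta28 (hf i), lab_eta28 (hf i')] at this
      exact ctx_unit_le this
    refine lt_of_le_of_ne hle ?_
    intro heq
    exact rowInj i i' hii.ne (hX i) ((hf i).trans (by rw [heq]; exact (hf i').symm))
  have hfm' : StrictMono f' := by
    intro i i' hii
    have hlt : cols (c63 i) < cols (c63 i') := hcm (c63_mono hii)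
    have hle : f' i ≤ f' i' := by
      have := hlt.le
      rw [lab_eta28 (hf' i), lab_eta28 (hf' i')] at this
      exact ctx_unit_le this
    refine lt_of_le_of_ne hle ?_
    intro heq
    exact colInj i i' hii.ne (hYall i) ((hf' i).trans (by rw [heq]; exact (hf' i').symm))
  refine ⟨g, fun i => ?_, fun l => ?_⟩
  · rw [hf i, strictMono_fin_eq_id28 hfm i]
  · rw [hf' l, strictMono_fin_eq_id28 hfm' l]

end Crest.Agent.OM
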