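import Mathlib

/-!
# S0066: definitions (own construction, helper20)

Units of width `2^h`.  A label is a pair (unit, position).  See `OM/README` on the board.
-/
set_option autoImplicit false

namespace Crest.Agent.OM

/-- context groups = typed sandwich rules. `V j`, `Hz j a` link tree level `j+1` to level `j`. -/
inductive Grp (h : ℕ) where
  | V (j : Fin h) : Grp h
  | Hz (j : Fin h) (a : Bool) : Grp h
  | N : Grp h
  deriving DecidableEq, Fintype

/-- units -/
inductive Unt (h : ℕ) where
  | junk (i : Fin (186 * h - 66)) : Unt h
  | ctx (g : Grp h) (i : Fin 63) : Unt h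
  | cl (g : Grp h) (k : Fin 3) : Unt h
  | tr (j : Fin (h + 1)) (w : Bool) : Unt h
  deriving DecidableEq, Fintype

/-- labels (used both for rows and for columns) -/
@[ext] structure Lab (h : ℕ) where
  u : Unt h
  q : Fin (2 ^ h)
  deriving DecidableEq, Fintype

variable {h : ℕ}

def Grp.code : Grp h → ℕ
  | .V j => 3 * j.val
  | .Hz j a => 3 * j.val + (if a then 2 else 1)
  | .N => 3 * h

/-- representative leaf of the level-`j` dyadic block containing `q`: first leaf (`w = false`,
"alpha") or last leaf (`w = true`, "omega"). -/
def rep (j : ℕ) (w : Bool) (q : ℕ) : ℕ :=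
  if w then q / 2 ^ j * 2 ^ j + (2 ^ j - 1) else q / 2 ^ j * 2 ^ j

/-- the four components of the sorting key -/
def k1 (r : Lab h) : ℕ :=
  match r.u with
  | .junk _ => 0
  | .ctx _ _ => 1
  | .cl _ k => if k = 0 then 2 else 4
  | .tr _ _ => 3

def k2 (r : Lab h) : ℕ :=
  match r.u with
  | .junk i => i.val
  | .ctx g _ => g.code
  | .cl g _ => g.code
  | .tr j w => 2 * rep j.val w r.q.val + (if w then 1 else 0)

def k3 (r : Lab h) : ℕ :=
  match r.u with
  | .junk _ => 0
  | .ctx _ i => i.val
  | .cl _ k => k.val
  | .tr j w => if w then j.val else h - j.val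

def k4 (r : Lab h) : ℕ := r.q.val

def key (r : Lab h) : ℕ ×ₗ ℕ ×ₗ ℕ ×ₗ ℕ := toLex (k1 r, toLex (k2 r, toLex (k3 r, k4 r)))

/-- parity (child index) of the level-`j` block containing `q` -/
def par (j q : ℕ) : Bool := decide ((q / 2 ^ j) % 2 = 1)

/-- position (0,1,2) at which the ROW (unit `u`, position `q`) is attached to the group. -/
def attR : Grp h → Unt h → ℕ → Option (Fin 3)
  | .V j, .tr j' w, _ =>
      if j'.val = j.val + 1 then some (if w then 2 else 0)
      else if j'.val = j.val then some 1 else none
  | .Hz j a, .tr j' _, q => if j'.val = j.val ∧ par j.val q = a then some 1 else none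
  | .Hz j a, .cl g k, _ => if g = .Hz j a ∧ k ≠ 1 then some k else none
  | .N, .tr j' w, _ => if j'.val = 0 ∧ w = false then some 1 else none
  | .N, .cl g k, _ => if g = .N ∧ k ≠ 1 then some k else none
  | _, _, _ => none

/-- position (0,1,2) at which the COLUMN (unit `u`, position `q`) is attached to the group. -/
def attC : Grp h → Unt h → ℕ → Option (Fin 3)
  | .V j, .tr j' _, _ => if j'.val = j.val + 1 then some 1 else none
  | .V j, .cl g k, _ => if g = .V j ∧ k ≠ 1 then some k else none
  | .Hz j a, .tr j' w, q =>
      if j'.val = j.val + 1 then some (if w then 2 else 0)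
      else if j'.val = j.val ∧ par j.val q = a then some 1 else none
  | .N, .tr j' w, _ => if j'.val = 0 ∧ w = false then some 0 else none
  | .N, .cl g k, _ => if g = .N ∧ k ≠ 0 then some k else none
  | _, _, _ => none

/-- context block: all ones except the diagonal entries (i,i), i ≥ 1 -/
def Kc (i l : ℕ) : Bool := !(decide (i = l) && decide (i ≠ 0))

def sigOK (o : Option (Fin 3)) (i : ℕ) : Bool :=
  match o with
  | some k => decide (i = 60 + k.val)
  | none => false

/-- the 66 × 66 pattern: rows/cols 0..62 context, 63,64,65 core. -/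
def Hpat (i l : Fin 66) : Bool :=
  if i.val < 63 then
    (if l.val < 63 then Kc i.val l.val else decide (i.val + 3 = l.val))
  else
    (if l.val < 63 then decide (l.val + 3 = i.val) else !(decide (i.val = 64) && decide (l.val = 64)))

/-- the host matrix, on labels -/
def Amat (r c : Lab h) : Bool :=
  match r.u, c.u with
  | .junk _, _ => false
  | .ctx _ _, .junk _ => false
  | .ctx g i, .ctx g' l => decide (g = g') && Kc i.val l.val
  | .ctx g i, .cl g' k => sigOK (attC g (.cl g' k) c.q.val) i.val
  | .ctx g i, .tr j w => sigOK (attC g (.tr j w) c.q.val) i.val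
  | .cl _ _, .junk _ => false
  | .cl g' k, .ctx g l => sigOK (attR g (.cl g' k) r.q.val) l.val
  | .cl _ _, .cl _ _ => true
  | .cl _ _, .tr _ _ => true
  | .tr _ _, .junk _ => false
  | .tr j w, .ctx g l => sigOK (attR g (.tr j w) r.q.val) l.val
  | .tr _ _, .cl _ k => decide (k ≠ 1)
  | .tr j _, .tr j' _ =>
      decide (r.q.val / 2 ^ (max j.val j'.val) = c.q.val / 2 ^ (max j.val j'.val))

/-- classes -/
def isJ (r : Lab h) : Prop := k1 r = 0
def isC (r : Lab h) : Prop := k1 r = 1
def isS (r : Lab h) : Prop := 2 ≤ k1 r

/-- low tree units (level < h) -/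
def low : Unt h → Prop
  | .tr j _ => j.val ≠ h
  | _ => False

instance : DecidablePred (low (h := h)) := fun u => by
  cases u <;> simp only [low] <;> infer_instance

/-- the transversal: low tree units at position `x`, all other units at position `s` -/
def sel (x s : Fin (2 ^ h)) (u : Unt h) : Lab h := ⟨u, if low u then x else s⟩

/-- index of the `i`-th context row/column of the pattern -/
def c63 (i : Fin 63) : Fin 66 := ⟨i.val, by omega⟩
/-- index of the `k`-th core row/column of the pattern -/
def k66 (k : Fin 3) : Fin 66 := ⟨63 + k.val, by omega⟩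

/-- the 3 × 3 core: a zero surrounded by ones -/
def Phi (k k' : Fin 3) : Bool := !(decide (k = 1) && decide (k' = 1))

/-- The equation lemmas of the pattern-matching definitions are realised here, once, in the defining
module, so that the modules downstream share one copy of them (otherwise each sibling module that
unfolds `attR`/`attC` creates its own copy, with the same statement). -/
theorem eqns_realised_here : True := by
  have _a1 := @attR.eq_1
  have _a2 := @attR.eq_2
  have _a3 := @attR.eq_3
  have _a4 := @attR.eq_4
  have _a5 := @attR.eq_5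
  have _a6 := @attR.eq_6
  have _c1 := @attC.eq_1
  have _c2 := @attC.eq_2
  have _c3 := @attC.eq_3
  have _c4 := @attC.eq_4
  have _c5 := @attC.eq_5
  have _c6 := @attC.eq_6
  have _p1 := @Phi.eq_1
  have _i1 := @isC.eq_1
  trivial

end Crest.Agent.OM
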