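import Crest.Agent.OM.Order

/-! # S0066 (ordered-matrix removal counterexample): task GOOD1 -/
set_option autoImplicit false

namespace Crest.Agent.OM
variable {h : ℕ}

/-- `B` agrees with `Amat` on all robust entries of the transversal `(x,s,t)` -/
def Good (B : Lab h → Lab h → Bool) (x s t : Fin (2 ^ h)) : Prop :=
  ∀ u v : Unt h, ¬ (low u ∧ low v) → B (sel x s u) (sel x t v) = Amat (sel x s u) (sel x t v)

theorem sel_eq_iff (x s : Fin (2 ^ h)) (r : Lab h) :
    sel x s r.u = r ↔ (if low r.u then x else s) = r.q := by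
  constructor
  · intro hh
    have := congrArg Lab.q hh
    simpa [sel] using this
  · intro hh
    apply Lab.ext
    · simp [sel]
    · simpa [sel] using hh

/-- GOOD-1. For a fixed entry `(r,c)` with `¬ (low r.u ∧ low c.u)` at most `2^h` triples `(x,s,t)` select it:
`(sel x s r.u).q = r.q` fixes `x` or `s`, `(sel x t c.u).q = c.q` fixes `x` or `t`, and not both fix `x`;
so two of the three coordinates are fixed (inject the set into `Fin (2^h)` by the third coordinate). -/
theorem card_sel_le (r c : Lab h) (hrc : ¬ (low r.u ∧ low c.u)) :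
    (Finset.univ.filter (fun p : Fin (2 ^ h) × Fin (2 ^ h) × Fin (2 ^ h) =>
      sel p.1 p.2.1 r.u = r ∧ sel p.1 p.2.2 c.u = c)).card ≤ 2 ^ h := by
  have hcard : (Finset.univ : Finset (Fin (2 ^ h))).card = 2 ^ h := by simp
  refine le_of_le_of_eq ?_ hcard
  by_cases hr : low r.u
  · have hc : ¬ low c.u := fun hc => hrc ⟨hr, hc⟩
    apply Finset.card_le_card_of_injOn (fun p => p.2.1) (fun _ _ => Finset.mem_univ _)
    rintro ⟨x, s, t⟩ hp ⟨x', s', t'⟩ hp' hst
    simp only [Finset.coe_filter, Finset.mem_univ, true_and, Set.mem_ofPred_eq, sel_eq_iff,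
      if_pos hr, if_neg hc] at hp hp'
    simp only at hst
    rw [hp.1, hp.2, hp'.1, hp'.2, hst]
  · by_cases hc : low c.u
    · apply Finset.card_le_card_of_injOn (fun p => p.2.2) (fun _ _ => Finset.mem_univ _)
      rintro ⟨x, s, t⟩ hp ⟨x', s', t'⟩ hp' hst
      simp only [Finset.coe_filter, Finset.mem_univ, true_and, Set.mem_ofPred_eq, sel_eq_iff,
        if_neg hr, if_pos hc] at hp hp'
      simp only at hst
      rw [hp.1, hp.2, hp'.1, hp'.2, hst]
    · apply Finset.card_le_card_of_injOn (fun p => p.1) (fun _ _ => Finset.mem_univ _)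
      rintro ⟨x, s, t⟩ hp ⟨x', s', t'⟩ hp' hst
      simp only [Finset.coe_filter, Finset.mem_univ, true_and, Set.mem_ofPred_eq, sel_eq_iff,
        if_neg hr, if_neg hc] at hp hp'
      simp only at hst
      rw [hp.1, hp.2, hp'.1, hp'.2, hst]

end Crest.Agent.OM
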