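import Crest.Agent.OM.Nice1

/-! # S0066 (ordered-matrix removal counterexample): task NICE2 -/
set_option autoImplicit false

namespace Crest.Agent.OM
variable {h : ℕ}

theorem attR_inj (u : Unt h) (q : ℕ) : ∃ ψ : Grp h → Fin 4, ∀ g g' : Grp h,
    attR g u q ≠ none → attR g' u q ≠ none → ψ g = ψ g' → g = g' := by
  cases u with
  | junk i =>
    refine ⟨fun _ => 0, fun g g' h1 _ _ => ?_⟩
    cases g <;> simp [attR] at h1
  | ctx g0 i =>
    refine ⟨fun _ => 0, fun g g' h1 _ _ => ?_⟩
    cases g <;> simp [attR] at h1
  | cl g0 k =>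
    refine ⟨fun _ => 0, fun g g' h1 h2 _ => ?_⟩
    have key : ∀ g : Grp h, attR g (.cl g0 k) q ≠ none → g = g0 := by
      intro g hg
      cases g with
      | V j => simp [attR] at hg
      | Hz j a =>
        simp only [attR] at hg
        by_cases hc : g0 = .Hz j a ∧ k ≠ 1
        · exact hc.1.symm
        · simp [hc] at hg
      | N =>
        simp only [attR] at hg
        by_cases hc : g0 = .N ∧ k ≠ 1
        · exact hc.1.symm
        · simp [hc] at hg
    rw [key g h1, key g' h2]
  | tr j' w =>
    refine ⟨fun g => match g with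
      | .V j => if j.val = j'.val then 0 else 1
      | .Hz _ _ => 2
      | .N => 3, fun g g' h1 h2 h3 => ?_⟩
    cases g with
    | V j =>
      cases g' with
      | V j2 =>
        simp only [attR] at h1 h2
        have e : j = j2 := by
          apply Fin.ext
          by_cases c1 : j.val = j'.val <;> by_cases c2 : j2.val = j'.val
          · omega
          · simp [c1, c2] at h3
          · simp [c1, c2] at h3
          · by_cases d1 : j'.val = j.val + 1 <;> by_cases d2 : j'.val = j2.val + 1
            · omega
            · have : ¬ j'.val = j2.val := fun e => c2 e.symm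
              simp [d2, this] at h2
            · have : ¬ j'.val = j.val := fun e => c1 e.symm
              simp [d1, this] at h1
            · have : ¬ j'.val = j.val := fun e => c1 e.symm
              simp [d1, this] at h1
        rw [e]
      | Hz j2 a2 =>
        exfalso
        by_cases c1 : j.val = j'.val <;> simp [c1] at h3
      | N =>
        exfalso
        by_cases c1 : j.val = j'.val <;> simp [c1] at h3
    | Hz j a =>
      cases g' with
      | V j2 =>
        exfalso
        by_cases c1 : j2.val = j'.val <;> simp [c1] at h3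
      | Hz j2 a2 =>
        simp only [attR] at h1 h2
        by_cases c1 : j'.val = j.val ∧ par j.val q = a
        · by_cases c2 : j'.val = j2.val ∧ par j2.val q = a2
          · have e : j = j2 := Fin.ext (by omega)
            subst e
            rw [← c1.2, ← c2.2]
          · simp [c2] at h2
        · simp [c1] at h1
      | N => simp at h3
    | N =>
      cases g' with
      | V j2 =>
        exfalso
        by_cases c1 : j2.val = j'.val <;> simp [c1] at h3
      | Hz j2 a2 => simp at h3
      | N => rfl

theorem isC_unit (y : Lab h) (hy : isC y) : ∃ g i, y.u = Unt.ctx g i := by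
  obtain ⟨u, q⟩ := y
  cases u with
  | junk i => simp [isC, k1] at hy
  | ctx g i => exact ⟨g, i, rfl⟩
  | cl g k =>
    simp only [isC, k1] at hy
    split_ifs at hy <;> omega
  | tr j w => simp [isC, k1] at hy

/-! ### NICE2 / NICE3: a special row (column) is attached to at most 4 (5) groups.
Proof of `Amat_fewR`: write `Y l = ⟨ctx (G l) (U l), _⟩`; by `Amat_S_ctx`, `attR (G l) r.u r.q = some k`
with `U l = 60 + k`, so `G l = G l'` implies `(Y l).u = (Y l').u`.  So it is enough to find `l ≠ l'`
with `G l = G l'`.  If `r.u = cl g k` then every `G l = g`.  If `r.u = tr j' w`: the map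
`ψ : Grp h → Fin 4`, `V j ↦ if j.val = j'.val then 0 else 1`, `Hz _ _ ↦ 2`, `N ↦ 3` is injective on
`{g | attR g r.u r.q ≠ none}`; pigeonhole `Fintype.exists_ne_map_eq_of_card_lt` for `ψ ∘ G : Fin 6 → Fin 4`.
For columns use `Fin 5`: `V _ ↦ 0`, `Hz j a ↦ if j.val = j'.val then 1 else (if a then 2 else 3)`, `N ↦ 4`. -/
theorem Amat_fewR (r : Lab h) (Y : Fin 6 → Lab h) (hs : isS r) (hY : ∀ l, isC (Y l))
    (h1 : ∀ l, Amat r (Y l) = true) : ∃ l l', l ≠ l' ∧ (Y l).u = (Y l').u := by
  choose G U hGU using fun l => isC_unit (Y l) (hY l)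
  have hsig : ∀ l, sigOK (attR (G l) r.u r.q.val) (U l).val = true := by
    intro l
    rw [← Amat_S_ctx r hs (G l) (U l) (Y l).q, ← h1 l]
    congr 1
    apply Lab.ext
    · exact (hGU l).symm
    · rfl
  obtain ⟨ψ, hψ⟩ := attR_inj r.u r.q.val
  obtain ⟨l, l', hne, heq⟩ := Fintype.exists_ne_map_eq_of_card_lt (fun l => ψ (G l)) (by simp)
  have hnn : ∀ l, attR (G l) r.u r.q.val ≠ none := by
    intro l hn
    have := hsig l
    rw [hn] at this
    simp [sigOK] at this
  have hG : G l = G l' := hψ _ _ (hnn l) (hnn l') heq
  refine ⟨l, l', hne, ?_⟩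
  rw [hGU l, hGU l', hG]
  congr 1
  have a1 := hsig l
  have a2 := hsig l'
  rw [hG] at a1
  cases hk : attR (G l') r.u r.q.val with
  | none => exact absurd hk (hnn l')
  | some k =>
    rw [hk] at a1 a2
    simp only [sigOK, decide_eq_true_eq] at a1 a2
    exact Fin.ext (by omega)

end Crest.Agent.OM
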