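import Crest.Agent.OM.OrderTree

/-! # S0066 (ordered-matrix removal counterexample): the structure `Nice` (no task) -/
set_option autoImplicit false

namespace Crest.Agent.OM
variable {h : ℕ}

/-- the (transpose-symmetric) list of properties used in the rigidity proof -/
structure Nice (M : Lab h → Lab h → Bool) : Prop where
  junkR : ∀ r c, isJ r → M r c = false
  junkC : ∀ r c, isJ c → M r c = false
  cc : ∀ (g g' : Grp h) (i l : Fin 63) (s t : Fin (2 ^ h)),
    M ⟨.ctx g i, s⟩ ⟨.ctx g' l, t⟩ = true → g = g'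
  twinR : ∀ r r' c, isC r → r.u = r'.u → M r c = M r' c
  twinC : ∀ r c c', isC c → c.u = c'.u → M r c = M r c'
  uniqR : ∀ (r : Lab h) (g : Grp h) (l l' : Fin 63) (t t' : Fin (2 ^ h)), isS r →
    M r ⟨.ctx g l, t⟩ = true → M r ⟨.ctx g l', t'⟩ = true → l = l'
  uniqC : ∀ (c : Lab h) (g : Grp h) (i i' : Fin 63) (s s' : Fin (2 ^ h)), isS c →
    M ⟨.ctx g i, s⟩ c = true → M ⟨.ctx g i', s'⟩ c = true → i = i'
  fewR : ∀ (r : Lab h) (Y : Fin 6 → Lab h), isS r → (∀ l, isC (Y l)) → (∀ l, M r (Y l) = true) →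
    ∃ l l', l ≠ l' ∧ (Y l).u = (Y l').u
  fewC : ∀ (c : Lab h) (X : Fin 6 → Lab h), isS c → (∀ i, isC (X i)) → (∀ i, M (X i) c = true) →
    ∃ i i', i ≠ i' ∧ (X i).u = (X i').u

theorem Nice.transpose {M : Lab h → Lab h → Bool} (hM : Nice M) : Nice (fun r c => M c r) where
  junkR := fun r c hr => hM.junkC c r hr
  junkC := fun r c hc => hM.junkR c r hc
  cc := fun g g' i l s t hh => (hM.cc g' g l i t s hh).symm
  twinR := fun r r' c hr hu => hM.twinC c r r' hr hu
  twinC := fun r c c' hc hu => hM.twinR c c' r hc hu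
  uniqR := fun r g l l' t t' hs h1 h2 => hM.uniqC r g l l' t t' hs h1 h2
  uniqC := fun c g i i' s s' hs h1 h2 => hM.uniqR c g i i' s s' hs h1 h2
  fewR := fun r Y hs hY h1 => hM.fewC r Y hs hY h1
  fewC := fun c X hs hX h1 => hM.fewR c X hs hX h1


end Crest.Agent.OM
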