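import Crest.Agent.OM.Defs

/-! # S0066: the linear order on labels  (task ORD, done by helper20) -/
set_option autoImplicit false

namespace Crest.Agent.OM
variable {h : ℕ}

theorem code_injective : Function.Injective (Grp.code (h := h)) := by
  intro g g' hgg
  cases g with
  | V j =>
    cases g' with
    | V j' => simp only [Grp.code] at hgg; congr 1; ext; omega
    | Hz j' a' => simp only [Grp.code] at hgg; split_ifs at hgg <;> omega
    | N => simp only [Grp.code] at hgg; have := j.isLt; omega
  | Hz j a =>
    cases g' with
    | V j' => simp only [Grp.code] at hgg; split_ifs at hgg <;> omega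
    | Hz j' a' =>
      simp only [Grp.code] at hgg
      have hj : j = j' := by ext; split_ifs at hgg <;> omega
      subst hj
      have : a = a' := by
        cases a <;> cases a' <;> simp at hgg ⊢
      rw [this]
    | N => simp only [Grp.code] at hgg; have := j.isLt; split_ifs at hgg <;> omega
  | N =>
    cases g' with
    | V j' => simp only [Grp.code] at hgg; have := j'.isLt; omega
    | Hz j' a' => simp only [Grp.code] at hgg; have := j'.isLt; split_ifs at hgg <;> omega
    | N => rfl

theorem key_eq_iff (r r' : Lab h) : key r = key r' ↔ k1 r = k1 r' ∧ k2 r = k2 r' ∧ k3 r = k3 r' ∧ k4 r = k4 r' := by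
  unfold key
  constructor
  · intro hk
    have h1 := congrArg (fun z => (ofLex z).1) hk
    have h2 := congrArg (fun z => (ofLex (ofLex z).2).1) hk
    have h3 := congrArg (fun z => (ofLex (ofLex (ofLex z).2).2).1) hk
    have h4 := congrArg (fun z => (ofLex (ofLex (ofLex z).2).2).2) hk
    exact ⟨h1, h2, h3, h4⟩
  · rintro ⟨h1, h2, h3, h4⟩
    rw [h1, h2, h3, h4]

theorem key_injective : Function.Injective (key (h := h)) := by
  intro r r' hk
  obtain ⟨h1, h2, h3, h4⟩ := (key_eq_iff r r').1 hk
  obtain ⟨u, q⟩ := r
  obtain ⟨u', q'⟩ := r'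
  have hq : q = q' := by
    simp only [k4] at h4
    exact Fin.ext h4
  subst hq
  congr 1
  cases u with
  | junk i =>
    cases u' with
    | junk i' => simp only [k2] at h2; congr 1; exact Fin.ext h2
    | ctx g' i' => simp [k1] at h1
    | cl g' k' => simp only [k1] at h1; split_ifs at h1 <;> omega
    | tr j' w' => simp [k1] at h1
  | ctx g i =>
    cases u' with
    | junk i' => simp [k1] at h1
    | ctx g' i' =>
      simp only [k2] at h2; simp only [k3] at h3
      rw [code_injective h2, Fin.ext h3]
    | cl g' k' => simp only [k1] at h1; split_ifs at h1 <;> omega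
    | tr j' w' => simp [k1] at h1
  | cl g k =>
    cases u' with
    | junk i' => simp only [k1] at h1; split_ifs at h1 <;> omega
    | ctx g' i' => simp only [k1] at h1; split_ifs at h1 <;> omega
    | cl g' k' =>
      simp only [k2] at h2; simp only [k3] at h3
      rw [code_injective h2, Fin.ext h3]
    | tr j' w' => simp only [k1] at h1; split_ifs at h1 <;> omega
  | tr j w =>
    cases u' with
    | junk i' => simp [k1] at h1
    | ctx g' i' => simp [k1] at h1
    | cl g' k' => simp only [k1] at h1; split_ifs at h1 <;> omega
    | tr j' w' =>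
      simp only [k2] at h2; simp only [k3] at h3
      have hw : w = w' := by
        cases w <;> cases w' <;> simp at h2 ⊢ <;> omega
      subst hw
      have hj : j = j' := by
        ext
        have := j.isLt; have := j'.isLt
        cases w <;> simp at h3 <;> omega
      rw [hj]

instance : LinearOrder (Lab h) := LinearOrder.lift' key key_injective

theorem lt_iff (r r' : Lab h) : r < r' ↔ k1 r < k1 r' ∨ (k1 r = k1 r' ∧ (k2 r < k2 r' ∨
    (k2 r = k2 r' ∧ (k3 r < k3 r' ∨ (k3 r = k3 r' ∧ k4 r < k4 r'))))) := by
  show key r < key r' ↔ _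
  unfold key
  rw [Prod.Lex.toLex_lt_toLex]
  simp only
  rw [Prod.Lex.toLex_lt_toLex]
  simp only
  rw [Prod.Lex.toLex_lt_toLex]

theorem k1_mono {r r' : Lab h} (hle : r ≤ r') : k1 r ≤ k1 r' := by
  rcases hle.lt_or_eq with hlt | heq
  · rcases (lt_iff r r').1 hlt with h1 | h1
    · exact h1.le
    · exact h1.1.le
  · rw [heq]

theorem isS_of_le {r r' : Lab h} (hle : r ≤ r') (hs : isS r) : isS r' :=
  le_trans hs (k1_mono hle)

/-- a copy of the pattern in a matrix indexed by labels -/
def IsCopy (M : Lab h → Lab h → Bool) (rows cols : Fin 66 → Lab h) : Prop :=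
  StrictMono rows ∧ StrictMono cols ∧ ∀ i l, M (rows i) (cols l) = Hpat i l

end Crest.Agent.OM
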