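import Crest.Agent.OM.Order
import Crest.Agent.OM.Arith

/-! # S0066 (ordered-matrix removal counterexample): task ORDTA. Everything follows from `lt_iff` by unfolding k1..k4 -/
set_option autoImplicit false

namespace Crest.Agent.OM
variable {h : ℕ}

/-- ORDT-1: `rep` is weakly monotone on tree labels (compare `k2 = 2*rep + [w]`). -/
theorem rep_le_of_lt {j j' : Fin (h + 1)} {w w' : Bool} {q q' : Fin (2 ^ h)}
    (hlt : (⟨.tr j w, q⟩ : Lab h) < ⟨.tr j' w', q'⟩) :
    rep j.val w q.val ≤ rep j'.val w' q'.val := by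
  rw [lt_iff] at hlt
  simp only [k1, k2] at hlt
  have hle : 2 * rep j.val w q.val + (if w then 1 else 0)
      ≤ 2 * rep j'.val w' q'.val + (if w' then 1 else 0) := by
    rcases hlt with h1 | ⟨_, h2 | ⟨h2, _⟩⟩
    · omega
    · exact h2.le
    · exact h2.le
  cases w <;> cases w' <;> simp at hle <;> omega

/-- ORDT-2: sandwich. By ORDT-1, `rep_div` and monotonicity of division. -/
theorem sandwich {J j : Fin (h + 1)} {w : Bool} {q0 q1 q2 : Fin (2 ^ h)} (hJ : j.val ≤ J.val)
    (h01 : (⟨.tr J false, q0⟩ : Lab h) < ⟨.tr j w, q1⟩)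
    (h12 : (⟨.tr j w, q1⟩ : Lab h) < ⟨.tr J true, q2⟩)
    (h02 : q0.val / 2 ^ J.val = q2.val / 2 ^ J.val) :
    q1.val / 2 ^ J.val = q0.val / 2 ^ J.val := by
  have a1 := Nat.div_le_div_right (c := 2 ^ J.val) (rep_le_of_lt h01)
  have a2 := Nat.div_le_div_right (c := 2 ^ J.val) (rep_le_of_lt h12)
  rw [rep_div J.val J.val false q0.val le_rfl, rep_div j.val J.val w q1.val hJ] at a1
  rw [rep_div J.val J.val true q2.val le_rfl, rep_div j.val J.val w q1.val hJ] at a2
  omega

end Crest.Agent.OM
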