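import Crest.Agent.OM.Order
import Crest.Agent.OM.Arith

/-! # S0066 (ordered-matrix removal counterexample): task ORDTB. Everything follows from `lt_iff` by unfolding k1..k4, rep -/
set_option autoImplicit false

namespace Crest.Agent.OM
variable {h : ℕ}

theorem dy_aux (j q : ℕ) :
    q / 2 ^ (j + 1) * 2 ^ (j + 1) ≤ q / 2 ^ j * 2 ^ j ∧
    q / 2 ^ j * 2 ^ j + 2 ^ j ≤ q / 2 ^ (j + 1) * 2 ^ (j + 1) + 2 ^ (j + 1) ∧ 0 < 2 ^ j ∧
    0 < 2 ^ (j + 1) := by
  have hP : 0 < 2 ^ j := by positivity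
  refine ⟨?_, ?_, hP, by positivity⟩
  · rw [pow_succ, ← Nat.div_div_eq_div_mul]
    set P := 2 ^ j
    set a := q / P
    set b := a / 2 with hb
    have h1 : 2 * b ≤ a := by omega
    calc b * (P * 2) = (2 * b) * P := by ring
      _ ≤ a * P := Nat.mul_le_mul_right P h1
  · rw [pow_succ, ← Nat.div_div_eq_div_mul]
    set P := 2 ^ j
    set a := q / P
    set b := a / 2 with hb
    have h2 : a + 1 ≤ 2 * b + 2 := by omega
    calc a * P + P = (a + 1) * P := by ring
      _ ≤ (2 * b + 2) * P := Nat.mul_le_mul_right P h2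
      _ = b * (P * 2) + P * 2 := by ring

/-- ORDT-3: alpha of the parent block comes before everything of the child block. -/
theorem alpha_lt (j : Fin h) (w : Bool) (q q' : Fin (2 ^ h))
    (hq : q.val / 2 ^ (j.val + 1) = q'.val / 2 ^ (j.val + 1)) :
    (⟨.tr j.succ false, q⟩ : Lab h) < ⟨.tr j.castSucc w, q'⟩ := by
  obtain ⟨h1, h2, hP, hPP⟩ := dy_aux j.val q'.val
  have hj := j.isLt
  rw [lt_iff]
  simp only [k1, k2, k3, k4, rep, Fin.val_succ, Fin.val_castSucc, hq, lt_irrefl, false_or, true_and]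
  generalize q'.val / 2 ^ (j.val + 1) * 2 ^ (j.val + 1) = X at *
  generalize q'.val / 2 ^ j.val * 2 ^ j.val = Y at *
  generalize 2 ^ (j.val + 1) = Z at *
  generalize 2 ^ j.val = Z' at *
  cases w
  · simp only [Bool.false_eq_true, if_false]
    omega
  · simp only [Bool.false_eq_true, if_false, if_true]
    omega

/-- ORDT-4: omega of the parent block comes after everything of the child block. -/
theorem lt_omega (j : Fin h) (w : Bool) (q q' : Fin (2 ^ h))
    (hq : q.val / 2 ^ (j.val + 1) = q'.val / 2 ^ (j.val + 1)) :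
    (⟨.tr j.castSucc w, q'⟩ : Lab h) < ⟨.tr j.succ true, q⟩ := by
  obtain ⟨h1, h2, hP, hPP⟩ := dy_aux j.val q'.val
  have hj := j.isLt
  rw [lt_iff]
  simp only [k1, k2, k3, k4, rep, Fin.val_succ, Fin.val_castSucc, hq, lt_irrefl, false_or, true_and]
  generalize q'.val / 2 ^ (j.val + 1) * 2 ^ (j.val + 1) = X at *
  generalize q'.val / 2 ^ j.val * 2 ^ j.val = Y at *
  generalize 2 ^ (j.val + 1) = Z at *
  generalize 2 ^ j.val = Z' at *
  cases w
  · simp only [Bool.false_eq_true, if_false, if_true]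
    omega
  · simp only [if_true]
    omega

end Crest.Agent.OM
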