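import Crest.Agent.OM.Order

/-! # S0066 (ordered-matrix removal counterexample): task ORDTC (done by helper20) -/
set_option autoImplicit false

namespace Crest.Agent.OM
variable {h : ℕ}

/-- ORDT-5 .. : class order -/
theorem lt_of_k1_lt {r r' : Lab h} (hk : k1 r < k1 r') : r < r' :=
  (lt_iff r r').2 (Or.inl hk)

theorem ctx_lt_ctx (g : Grp h) {i i' : Fin 63} (hi : i < i') (s s' : Fin (2 ^ h)) :
    (⟨.ctx g i, s⟩ : Lab h) < ⟨.ctx g i', s'⟩ := by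
  rw [lt_iff]
  right
  refine ⟨rfl, Or.inr ⟨rfl, Or.inl ?_⟩⟩
  exact hi

theorem ctx_unit_le {g : Grp h} {i i' : Fin 63} {s s' : Fin (2 ^ h)}
    (hle : (⟨.ctx g i, s⟩ : Lab h) ≤ ⟨.ctx g i', s'⟩) : i ≤ i' := by
  by_contra hlt
  have := ctx_lt_ctx g (not_le.mp hlt) s' s
  exact absurd hle (not_le.mpr this)

theorem cl1_lt_cl2 (g : Grp h) (s s' : Fin (2 ^ h)) :
    (⟨.cl g 1, s⟩ : Lab h) < ⟨.cl g 2, s'⟩ := by
  rw [lt_iff]
  right
  refine ⟨by simp [k1], Or.inr ⟨rfl, Or.inl ?_⟩⟩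
  simp [k3]

end Crest.Agent.OM
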