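import Crest.Agent.OM.Nice1

/-! # S0066 (ordered-matrix removal counterexample): task RULEH -/
set_option autoImplicit false

namespace Crest.Agent.OM
variable {h : ℕ}

theorem attR_Hz_one {j : Fin h} {a : Bool} {r : Lab h}
    (hh : attR (.Hz j a) r.u r.q.val = some 1) :
    ∃ (j' : Fin (h + 1)) (w : Bool), r.u = .tr j' w ∧ j'.val = j.val ∧ par j.val r.q.val = a := by
  rcases hu : r.u with i | ⟨g', i'⟩ | ⟨g', k'⟩ | ⟨j', w⟩
  · rw [hu] at hh; simp [attR] at hh
  · rw [hu] at hh; simp [attR] at hh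
  · rw [hu] at hh
    simp only [attR] at hh
    split at hh
    · rename_i hcond
      exact absurd (Option.some.inj hh) hcond.2
    · simp at hh
  · rw [hu] at hh
    simp only [attR] at hh
    split at hh
    · rename_i hcond
      exact ⟨j', w, rfl, hcond.1, hcond.2⟩
    · simp at hh

theorem attC_Hz {j : Fin h} {a : Bool} {c : Lab h} {k : Fin 3}
    (hh : attC (.Hz j a) c.u c.q.val = some k) :
    ∃ (j' : Fin (h + 1)) (w : Bool), c.u = .tr j' w ∧
      ((j'.val = j.val + 1 ∧ k = (if w then 2 else 0)) ∨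
       (j'.val = j.val ∧ par j.val c.q.val = a ∧ k = 1)) := by
  rcases hu : c.u with i | ⟨g', i'⟩ | ⟨g', k'⟩ | ⟨j', w⟩
  · rw [hu] at hh; simp [attC] at hh
  · rw [hu] at hh; simp [attC] at hh
  · rw [hu] at hh; simp [attC] at hh
  · rw [hu] at hh
    simp only [attC] at hh
    refine ⟨j', w, rfl, ?_⟩
    split at hh
    · rename_i hcond
      exact Or.inl ⟨hcond, (Option.some.inj hh).symm⟩
    · split at hh
      · rename_i hcond
        exact Or.inr ⟨hcond.1, hcond.2, (Option.some.inj hh).symm⟩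
      · simp at hh

/-- RULEH.  `R 1 = ⟨tr j' w, q⟩`, `j' = j`, `par j q = a`; `C 0 = ⟨tr (j+1) false, q0⟩`, `C 1 = ⟨tr j w', q1⟩` with
`par j q1 = a`, `C 2 = ⟨tr (j+1) true, q2⟩`.  `Amat (R 1) (C 0) = Amat (R 1) (C 2) = true` give
`q/2^(j+1) = q0/2^(j+1) = q2/2^(j+1)`, `sandwich` gives `q1/2^(j+1) = q0/2^(j+1)`, `div_eq_of_par` gives
`q1/2^j = q/2^j`, so `Amat (R 1) (C 1) = true`: contradiction. -/
theorem rule_H (j : Fin h) (a : Bool) (R C : Fin 3 → Lab h) (hR : StrictMono R) (hC : StrictMono C)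
    (hRa : ∀ k, attR (.Hz j a) (R k).u (R k).q.val = some k)
    (hCa : ∀ k, attC (.Hz j a) (C k).u (C k).q.val = some k)
    (hcore : ∀ k k', Amat (R k) (C k') = Phi k k') : False := by
  obtain ⟨jr, wr, hur, hjr, hpr⟩ := attR_Hz_one (hRa 1)
  obtain ⟨j0, w0, hu0, h0⟩ := attC_Hz (hCa 0)
  obtain ⟨j1, w1, hu1, h1⟩ := attC_Hz (hCa 1)
  obtain ⟨j2, w2, hu2, h2⟩ := attC_Hz (hCa 2)
  -- column 0
  have h0' : j0.val = j.val + 1 ∧ w0 = false := by
    rcases h0 with ⟨e, hk⟩ | ⟨_, _, hk⟩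
    · refine ⟨e, ?_⟩
      cases w0
      · rfl
      · simp at hk
    · simp at hk
  have h2' : j2.val = j.val + 1 ∧ w2 = true := by
    rcases h2 with ⟨e, hk⟩ | ⟨_, _, hk⟩
    · refine ⟨e, ?_⟩
      cases w2
      · simp at hk
      · rfl
    · simp at hk
  have h1' : j1.val = j.val ∧ par j.val (C 1).q.val = a := by
    rcases h1 with ⟨_, hk⟩ | ⟨e, hp, _⟩
    · cases w1 <;> simp at hk
    · exact ⟨e, hp⟩
  obtain ⟨e0, rfl⟩ := h0'
  obtain ⟨e2, rfl⟩ := h2'
  obtain ⟨e1, hp1⟩ := h1'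
  have ej : j2 = j0 := Fin.ext (by omega)
  subst ej
  have hR1 : R 1 = ⟨.tr jr wr, (R 1).q⟩ := Lab.ext hur rfl
  have hC0 : C 0 = ⟨.tr j2 false, (C 0).q⟩ := Lab.ext hu0 rfl
  have hC1 : C 1 = ⟨.tr j1 w1, (C 1).q⟩ := Lab.ext hu1 rfl
  have hC2 : C 2 = ⟨.tr j2 true, (C 2).q⟩ := Lab.ext hu2 rfl
  have a10 : (R 1).q.val / 2 ^ (j.val + 1) = (C 0).q.val / 2 ^ (j.val + 1) := by
    have := hcore 1 0
    rw [hR1, hC0] at this
    simp only [Amat, Phi] at this
    have hm : max jr.val j2.val = j.val + 1 := by omega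
    rw [hm] at this
    simpa using this
  have a12 : (R 1).q.val / 2 ^ (j.val + 1) = (C 2).q.val / 2 ^ (j.val + 1) := by
    have := hcore 1 2
    rw [hR1, hC2] at this
    simp only [Amat, Phi] at this
    have hm : max jr.val j2.val = j.val + 1 := by omega
    rw [hm] at this
    simpa using this
  have a11 : (R 1).q.val / 2 ^ j.val ≠ (C 1).q.val / 2 ^ j.val := by
    have := hcore 1 1
    rw [hR1, hC1] at this
    simp only [Amat, Phi] at this
    have hm : max jr.val j1.val = j.val := by omega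
    rw [hm] at this
    simpa using this
  have l01 : C 0 < C 1 := hC (by decide)
  have l12 : C 1 < C 2 := hC (by decide)
  rw [hC0, hC1] at l01
  rw [hC1, hC2] at l12
  have hs := sandwich (J := j2) (j := j1) (by omega) l01 l12 (by rw [e0, ← a10, ← a12])
  rw [e0] at hs
  apply a11
  exact div_eq_of_par (by rw [a10, hs]) (by rw [hpr, hp1])


end Crest.Agent.OM
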