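import Crest.Agent.OM.Nice1

/-! # S0066 (ordered-matrix removal counterexample): task RULEN -/
set_option autoImplicit false

namespace Crest.Agent.OM
variable {h : ℕ}

/-- a row attached to `N` at position `1` is a leaf alpha row. -/
theorem attR_N_one {u : Unt h} {q : ℕ} (hu : attR (.N : Grp h) u q = some 1) :
    u = .tr 0 false := by
  cases u with
  | junk i => simp [attR] at hu
  | ctx g i => simp [attR] at hu
  | cl g k =>
      simp only [attR] at hu
      split_ifs at hu with hc
      · exact absurd (Option.some.inj hu) hc.2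
  | tr j w =>
      simp only [attR] at hu
      split_ifs at hu with hc
      · obtain ⟨h1, h2⟩ := hc
        have : j = 0 := Fin.ext (by simpa using h1)
        rw [this, h2]

/-- a column attached to `N` at position `0` is a leaf alpha column. -/
theorem attC_N_zero {u : Unt h} {q : ℕ} (hu : attC (.N : Grp h) u q = some 0) :
    u = .tr 0 false := by
  cases u with
  | junk i => simp [attC] at hu
  | ctx g i => simp [attC] at hu
  | cl g k =>
      simp only [attC] at hu
      split_ifs at hu with hc
      · exact absurd (Option.some.inj hu) hc.2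
  | tr j w =>
      simp only [attC] at hu
      split_ifs at hu with hc
      · obtain ⟨h1, h2⟩ := hc
        have : j = 0 := Fin.ext (by simpa using h1)
        rw [this, h2]

/-- RULEN. `R 1 = ⟨tr 0 false, q⟩`, `C 0 = ⟨tr 0 false, q'⟩`, `Amat (R 1) (C 0) = true` gives `q/2^0 = q'/2^0`. -/
theorem rule_N (R C : Fin 3 → Lab h)
    (hRa : ∀ k, attR (.N : Grp h) (R k).u (R k).q.val = some k)
    (hCa : ∀ k, attC (.N : Grp h) (C k).u (C k).q.val = some k)
    (hcore : ∀ k k', Amat (R k) (C k') = Phi k k') :
    ∃ x : Fin (2 ^ h), R 1 = ⟨.tr 0 false, x⟩ ∧ C 0 = ⟨.tr 0 false, x⟩ := by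
  have hR := attR_N_one (hRa 1)
  have hC := attC_N_zero (hCa 0)
  have hc := hcore 1 0
  have hphi : Phi 1 0 = true := by decide
  rw [hphi] at hc
  generalize R 1 = r at hR hc ⊢
  generalize C 0 = c at hC hc ⊢
  obtain ⟨ru, rq⟩ := r
  obtain ⟨cu, cq⟩ := c
  simp only at hR hC
  subst hR
  subst hC
  simp only [Amat] at hc
  have hq : rq.val = cq.val := by simpa using hc
  have : rq = cq := Fin.ext hq
  subst this
  exact ⟨rq, rfl, rfl⟩

end Crest.Agent.OM
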