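import Crest.Agent.OM.RuleV
import Crest.Agent.OM.RuleH
import Crest.Agent.OM.RuleN

/-! # S0066 (ordered-matrix removal counterexample): assembly (no task) -/
set_option autoImplicit false

namespace Crest.Agent.OM
variable {h : ℕ}

theorem rule_check (g : Grp h) (R C : Fin 3 → Lab h) (hR : StrictMono R) (hC : StrictMono C)
    (hRa : ∀ k, attR g (R k).u (R k).q.val = some k)
    (hCa : ∀ k, attC g (C k).u (C k).q.val = some k)
    (hcore : ∀ k k', Amat (R k) (C k') = Phi k k') :
    ∃ x : Fin (2 ^ h), R 1 = ⟨.tr 0 false, x⟩ ∧ C 0 = ⟨.tr 0 false, x⟩ := by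
  cases g with
  | V j => exact (rule_V j R C hR hC hRa hCa hcore).elim
  | Hz j a => exact (rule_H j a R C hR hC hRa hCa hcore).elim
  | N => exact rule_N R C hRa hCa hcore


end Crest.Agent.OM
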