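import Crest.Agent.OM.Nice1

/-! # S0066 (ordered-matrix removal counterexample): task RULEV -/
set_option autoImplicit false

namespace Crest.Agent.OM
variable {h : ℕ}

theorem attR_V {j : Fin h} {r : Lab h} {k : Fin 3}
    (hh : attR (.V j) r.u r.q.val = some k) :
    ∃ (j' : Fin (h + 1)) (w : Bool), r.u = .tr j' w ∧
      ((j'.val = j.val + 1 ∧ k = (if w then 2 else 0)) ∨ (j'.val = j.val ∧ k = 1)) := by
  rcases hu : r.u with i | ⟨g', i'⟩ | ⟨g', k'⟩ | ⟨j', w⟩
  · rw [hu] at hh; simp [attR] at hh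
  · rw [hu] at hh; simp [attR] at hh
  · rw [hu] at hh; simp [attR] at hh
  · rw [hu] at hh
    simp only [attR] at hh
    refine ⟨j', w, rfl, ?_⟩
    split at hh
    · rename_i hcond
      exact Or.inl ⟨hcond, (Option.some.inj hh).symm⟩
    · split at hh
      · rename_i hcond
        exact Or.inr ⟨hcond, (Option.some.inj hh).symm⟩
      · simp at hh

theorem attC_V_one {j : Fin h} {c : Lab h}
    (hh : attC (.V j) c.u c.q.val = some 1) :
    ∃ (j' : Fin (h + 1)) (w : Bool), c.u = .tr j' w ∧ j'.val = j.val + 1 := by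
  rcases hu : c.u with i | ⟨g', i'⟩ | ⟨g', k'⟩ | ⟨j', w⟩
  · rw [hu] at hh; simp [attC] at hh
  · rw [hu] at hh; simp [attC] at hh
  · rw [hu] at hh
    simp only [attC] at hh
    split at hh
    · rename_i hcond
      exact absurd (Option.some.inj hh) hcond.2
    · simp at hh
  · rw [hu] at hh
    simp only [attC] at hh
    split at hh
    · rename_i hcond
      exact ⟨j', w, rfl, hcond⟩
    · simp at hh

/-- RULEV.  From `hRa`: `R 0 = ⟨tr J false, q0⟩`, `R 1 = ⟨tr j' w, q1⟩`, `R 2 = ⟨tr J' true, q2⟩` with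
`J = J' = j+1`, `j' = j`; from `hCa 1`: `C 1 = ⟨tr J'' w', q'⟩`, `J'' = j+1`.  `Amat (R 0) (C 1) = true`,
`Amat (R 2) (C 1) = true` give `q0/2^(j+1) = q'/2^(j+1) = q2/2^(j+1)`; `sandwich` gives `q1/2^(j+1) = q0/2^(j+1)`,
so `Amat (R 1) (C 1) = true`, contradicting `Phi 1 1 = false`. -/
theorem rule_V (j : Fin h) (R C : Fin 3 → Lab h) (hR : StrictMono R) (hC : StrictMono C)
    (hRa : ∀ k, attR (.V j) (R k).u (R k).q.val = some k)
    (hCa : ∀ k, attC (.V j) (C k).u (C k).q.val = some k)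
    (hcore : ∀ k k', Amat (R k) (C k') = Phi k k') : False := by
  obtain ⟨jc, wc, huc, hjc⟩ := attC_V_one (hCa 1)
  obtain ⟨j0, w0, hu0, h0⟩ := attR_V (hRa 0)
  obtain ⟨j1, w1, hu1, h1⟩ := attR_V (hRa 1)
  obtain ⟨j2, w2, hu2, h2⟩ := attR_V (hRa 2)
  have h0' : j0.val = j.val + 1 ∧ w0 = false := by
    rcases h0 with ⟨e, hk⟩ | ⟨_, hk⟩
    · refine ⟨e, ?_⟩
      cases w0
      · rfl
      · simp at hk
    · simp at hk
  have h2' : j2.val = j.val + 1 ∧ w2 = true := by
    rcases h2 with ⟨e, hk⟩ | ⟨_, hk⟩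
    · refine ⟨e, ?_⟩
      cases w2
      · simp at hk
      · rfl
    · simp at hk
  have e1 : j1.val = j.val := by
    rcases h1 with ⟨_, hk⟩ | ⟨e, _⟩
    · cases w1 <;> simp at hk
    · exact e
  obtain ⟨e0, rfl⟩ := h0'
  obtain ⟨e2, rfl⟩ := h2'
  have ej : j2 = j0 := Fin.ext (by omega)
  subst ej
  have hC1 : C 1 = ⟨.tr jc wc, (C 1).q⟩ := Lab.ext huc rfl
  have hR0 : R 0 = ⟨.tr j2 false, (R 0).q⟩ := Lab.ext hu0 rfl
  have hR1 : R 1 = ⟨.tr j1 w1, (R 1).q⟩ := Lab.ext hu1 rfl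
  have hR2 : R 2 = ⟨.tr j2 true, (R 2).q⟩ := Lab.ext hu2 rfl
  have a01 : (R 0).q.val / 2 ^ (j.val + 1) = (C 1).q.val / 2 ^ (j.val + 1) := by
    have := hcore 0 1
    rw [hR0, hC1] at this
    simp only [Amat, Phi] at this
    have hm : max j2.val jc.val = j.val + 1 := by omega
    rw [hm] at this
    simpa using this
  have a21 : (R 2).q.val / 2 ^ (j.val + 1) = (C 1).q.val / 2 ^ (j.val + 1) := by
    have := hcore 2 1
    rw [hR2, hC1] at this
    simp only [Amat, Phi] at this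
    have hm : max j2.val jc.val = j.val + 1 := by omega
    rw [hm] at this
    simpa using this
  have a11 : (R 1).q.val / 2 ^ (j.val + 1) ≠ (C 1).q.val / 2 ^ (j.val + 1) := by
    have := hcore 1 1
    rw [hR1, hC1] at this
    simp only [Amat, Phi] at this
    have hm : max j1.val jc.val = j.val + 1 := by omega
    rw [hm] at this
    simpa using this
  have l01 : R 0 < R 1 := hR (by decide)
  have l12 : R 1 < R 2 := hR (by decide)
  rw [hR0, hR1] at l01
  rw [hR1, hR2] at l12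
  have hs := sandwich (J := j2) (j := j1) (by omega) l01 l12 (by rw [e0, a01, a21])
  rw [e0] at hs
  exact a11 (by rw [hs, a01])


end Crest.Agent.OM
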