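import Crest.Agent.OM.Core
import Crest.Agent.OM.Ctx
import Crest.Agent.OM.Rule

/-! # S0066: every copy of the pattern in `Amat` contains a tie (task TIE) -/
set_option autoImplicit false

namespace Crest.Agent.OM
variable {h : ℕ}

theorem k66_strictMono : StrictMono k66 := by
  intro a b hab
  simp only [k66, Fin.lt_def] at *
  omega

theorem tie {rows cols : Fin 66 → Lab h} (hc : IsCopy Amat rows cols) :
    ∃ x : Fin (2 ^ h), rows 64 = ⟨.tr 0 false, x⟩ ∧ cols 63 = ⟨.tr 0 false, x⟩ := by
  obtain ⟨g, hr, hcl⟩ := ctx_part hc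
  have := rule_check g (fun k => rows (k66 k)) (fun k => cols (k66 k))
    (hc.1.comp k66_strictMono) (hc.2.1.comp k66_strictMono)
    (fun k => (core_rows hc g hr hcl k).2) (fun k => (core_cols hc g hr hcl k).2)
    (fun k k' => by rw [hc.2.2, Hpat_kk])
  exact this

end Crest.Agent.OM
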