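import Crest.Agent.OM.TransferDefs
import Crest.Agent.OM.Chain
import Crest.Agent.S66.Generic

/-! # S0066 (ordered-matrix removal counterexample): task TR1 -/
set_option autoImplicit false

namespace Crest.Agent.OM
open Crest.CombinatoricsR.OrderedMatrix
variable {h : ℕ}

/-- TR1.  Put `BL r c = B (e.symm r) (e.symm c)`.  A copy `(rows, cols)` of `Hpat` in `BL` gives the element
`(e.symm ∘ rows, e.symm ∘ cols)` of the subtype counted by `orderedCopyCount`, so `BL` has no copy; apply `far` and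
transport the filter along the bijection `e × e` (`Finset.card_bij` / `Finset.card_equiv`). -/
theorem far_fin (hh : 1 ≤ h) (B : Fin ((386 * h + 2) * 2 ^ h) → Fin ((386 * h + 2) * 2 ^ h) → Bool)
    (hB : orderedCopyCount Hpat B = 0) :
    4 ^ h ≤ (Finset.univ.filter (fun rc : Fin ((386 * h + 2) * 2 ^ h) × Fin ((386 * h + 2) * 2 ^ h) =>
      Afin hh rc.1 rc.2 ≠ B rc.1 rc.2)).card := by
  have h1 := Crest.Agent.S66.diff_card_pull (eIso hh) (eIso hh) (Amat (h := h)) B
  have h2 : (Finset.univ.filter (fun rc : Fin ((386 * h + 2) * 2 ^ h) × Fin ((386 * h + 2) * 2 ^ h) =>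
      Afin hh rc.1 rc.2 ≠ B rc.1 rc.2)).card =
      (Finset.univ.filter (fun rc : Fin ((386 * h + 2) * 2 ^ h) × Fin ((386 * h + 2) * 2 ^ h) =>
      Crest.Agent.S66.pull (eIso hh) (eIso hh) (Amat (h := h)) rc.1 rc.2 ≠ B rc.1 rc.2)).card := rfl
  rw [h2, h1]
  apply far
  intro rows cols hc
  have h3 := Crest.Agent.S66.count_pull_ne_zero (H := Hpat) (eIso hh) (eIso hh)
    (B := Crest.Agent.S66.push (eIso hh) (eIso hh) B) ⟨rows, cols, hc.1, hc.2.1, hc.2.2⟩
  rw [Crest.Agent.S66.pull_push] at h3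
  exact h3 hB

end Crest.Agent.OM
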