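import Crest.Agent.OM.TransferDefs
import Crest.Agent.OM.Tie
import Crest.Agent.S66.Generic

/-! # S0066 (ordered-matrix removal counterexample): task TR2 -/
set_option autoImplicit false

namespace Crest.Agent.OM
open Crest.CombinatoricsR.OrderedMatrix
variable {h : ℕ}

/-- TR2.  For a copy `(rows, cols)` in `Afin`, `(e ∘ rows, e ∘ cols)` is a copy in `Amat`, so by `tie` there is `x` with
`rows 64 = e.symm ⟨tr 0 false, x⟩`, `cols 63 = e.symm ⟨tr 0 false, x⟩`.  Hence
`rc ↦ (rows restricted to {i ≠ 64}, cols restricted to {l ≠ 63}, x)` is injective into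
`({i // i ≠ 64} → Fin n) × ({l // l ≠ 63} → Fin n) × Fin (2^h)`, of cardinality `n^65 * n^65 * 2^h`. -/
theorem count_fin (hh : 1 ≤ h) :
    orderedCopyCount Hpat (Afin hh) ≤ 2 ^ h * ((386 * h + 2) * 2 ^ h) ^ 130 := by
  classical
  have h1 := Crest.Agent.S66.count_abstract Hpat (eIso hh) (eIso hh) (Amat (h := h)) 64 63
    (Finset.univ.image (fun x : Fin (2 ^ h) =>
      ((⟨.tr 0 false, x⟩ : Lab h), (⟨.tr 0 false, x⟩ : Lab h)))) (by
      intro rows cols hr hc hH
      obtain ⟨x, hx1, hx2⟩ := tie (rows := rows) (cols := cols) ⟨hr, hc, hH⟩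
      rw [Finset.mem_image]
      exact ⟨x, Finset.mem_univ _, by rw [hx1, hx2]⟩)
  have h2 : orderedCopyCount Hpat (Afin hh) =
      orderedCopyCount Hpat (Crest.Agent.S66.pull (eIso hh) (eIso hh) (Amat (h := h))) := rfl
  rw [h2]
  refine le_trans h1 ?_
  have h3 : (Finset.univ.image (fun x : Fin (2 ^ h) =>
      ((⟨.tr 0 false, x⟩ : Lab h), (⟨.tr 0 false, x⟩ : Lab h)))).card ≤ 2 ^ h := by
    refine le_trans Finset.card_image_le ?_
    simp
  have h4 : (66 - 1 : ℕ) = 65 := rfl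
  rw [h4, mul_assoc, ← pow_add]
  exact Nat.mul_le_mul_right _ h3

end Crest.Agent.OM
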