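import Crest.Prelude.Def_OrderedMatrix
import Crest.Agent.OM.Card

/-! # S0066 (ordered-matrix removal counterexample): eIso, Afin (no task) -/
set_option autoImplicit false

namespace Crest.Agent.OM
open Crest.CombinatoricsR.OrderedMatrix
variable {h : ℕ}

/-- the increasing enumeration of the labels -/
noncomputable def eIso (hh : 1 ≤ h) : Fin ((386 * h + 2) * 2 ^ h) ≃o Lab h :=
  Fintype.orderIsoFinOfCardEq (Lab h) (card_lab hh)

/-- the host matrix on `Fin n` -/
noncomputable def Afin (hh : 1 ≤ h) (i j : Fin ((386 * h + 2) * 2 ^ h)) : Bool :=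
  Amat (eIso hh i) (eIso hh j)


end Crest.Agent.OM
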